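import Mathlib

namespace Vale.Agent.Lib.P162

/-- Position map of one Thorp shuffle of `2 * m` cards with coin vector `c`.
Positions are numbered `0, ..., 2m-1` and the top half is `0, ..., m-1`.
The cards at positions `i` and `m + i` (`i < m`) are placed at positions `2i` and `2i+1`;
the card coming from the top half goes to `2i` exactly when `c i = false`. -/
def thorpFun (m : ℕ) (c : Fin m → Bool) (p : Fin (2 * m)) : Fin (2 * m) :=
  ⟨2 * (p.val % m) +
      (if decide (m ≤ p.val) = c ⟨p.val % m, Nat.mod_lt _ (by have := p.isLt; omega)⟩ then 0 else 1),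
    by
      have h1 : p.val % m < m := Nat.mod_lt _ (by have := p.isLt; omega)
      split_ifs <;> omega⟩

theorem thorpFun_injective (m : ℕ) (c : Fin m → Bool) : Function.Injective (thorpFun m c) := by
  intro p q h
  have hp := p.isLt
  have hq := q.isLt
  have hm : 0 < m := by omega
  have h' := congrArg Fin.val h
  simp only [thorpFun] at h'
  have hpm : p.val % m < m := Nat.mod_lt _ hm
  have hqm : q.val % m < m := Nat.mod_lt _ hm
  have hmod : p.val % m = q.val % m := by
    split_ifs at h' <;> omega
  have hc : c ⟨p.val % m, hpm⟩ = c ⟨q.val % m, hqm⟩ := by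
    congr 1
    exact Fin.ext hmod
  have hdec : decide (m ≤ p.val) = decide (m ≤ q.val) := by
    rw [hc] at h'
    by_cases h1 : decide (m ≤ p.val) = c ⟨q.val % m, hqm⟩ <;>
    by_cases h2 : decide (m ≤ q.val) = c ⟨q.val % m, hqm⟩
    · rw [h1, h2]
    · simp only [h1, h2, if_true, if_false] at h'; omega
    · simp only [h1, h2, if_true, if_false] at h'; omega
    · cases hx : decide (m ≤ p.val) <;> cases hy : decide (m ≤ q.val) <;>
        cases hz : c ⟨q.val % m, hqm⟩ <;> simp_all
  have hle : (m ≤ p.val) ↔ (m ≤ q.val) := by
    constructor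
    · intro hh
      have : decide (m ≤ p.val) = true := decide_eq_true hh
      rw [hdec] at this
      exact of_decide_eq_true this
    · intro hh
      have : decide (m ≤ q.val) = true := decide_eq_true hh
      rw [← hdec] at this
      exact of_decide_eq_true this
  apply Fin.ext
  by_cases hh : m ≤ p.val
  · have hh' := hle.mp hh
    have e1 : p.val % m = p.val - m := by
      rw [Nat.mod_eq_sub_mod hh, Nat.mod_eq_of_lt (by omega)]
    have e2 : q.val % m = q.val - m := by
      rw [Nat.mod_eq_sub_mod hh', Nat.mod_eq_of_lt (by omega)]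
    omega
  · have hh' : ¬ m ≤ q.val := fun h2 => hh (hle.mpr h2)
    have e1 : p.val % m = p.val := Nat.mod_eq_of_lt (by omega)
    have e2 : q.val % m = q.val := Nat.mod_eq_of_lt (by omega)
    omega

theorem thorpFun_bijective (m : ℕ) (c : Fin m → Bool) : Function.Bijective (thorpFun m c) :=
  Finite.injective_iff_bijective.mp (thorpFun_injective m c)

/-- The permutation of the positions `0, ..., 2m-1` performed by one Thorp shuffle with
coin vector `c`. -/
noncomputable def thorpPerm (m : ℕ) (c : Fin m → Bool) : Equiv.Perm (Fin (2 * m)) :=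
  Equiv.ofBijective (thorpFun m c) (thorpFun_bijective m c)

/-- The law `q` of one Thorp shuffle of `2 * m` cards: all `2 ^ m` coin vectors are equally
likely, so `q g` is the number of coin vectors whose shuffle is `g`, divided by `2 ^ m`. -/
noncomputable def thorpLaw (m : ℕ) (g : Equiv.Perm (Fin (2 * m))) : ℝ :=
  (Finset.card (Finset.univ.filter (fun c : Fin m → Bool => thorpPerm m c = g)) : ℝ) / 2 ^ m

/-- Convolution of two real functions on a finite group. -/
noncomputable def conv {G : Type*} [Group G] [Fintype G] (μ ν : G → ℝ) (g : G) : ℝ :=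
  ∑ h : G, μ h * ν (h⁻¹ * g)

/-- `t`-fold convolution power; the `0`-th power is the point mass at the identity. -/
noncomputable def convPow {G : Type*} [Group G] [Fintype G] [DecidableEq G] (μ : G → ℝ) :
    ℕ → G → ℝ
  | 0 => fun g => if g = 1 then 1 else 0
  | t + 1 => conv (convPow μ t) μ

/-- Total variation distance `(1/2) * ∑ |μ g - ν g|`. -/
noncomputable def tvDist {G : Type*} [Fintype G] (μ ν : G → ℝ) : ℝ :=
  (1 / 2) * ∑ g : G, |μ g - ν g|

/-- The uniform law on a finite type. -/
noncomputable def unifLaw (G : Type*) [Fintype G] : G → ℝ :=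
  fun _ => 1 / (Fintype.card G : ℝ)

end Vale.Agent.Lib.P162
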