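import Mathlib
import Vale.Agent.Lib.P162.Defs

namespace Vale.Agent.Lib.P162

open Finset

section general

variable {G : Type*} [Group G] [Fintype G]

theorem conv_nonneg {μ ν : G → ℝ} (hμ : ∀ g, 0 ≤ μ g) (hν : ∀ g, 0 ≤ ν g) (g : G) :
    0 ≤ conv μ ν g := by
  unfold conv
  exact Finset.sum_nonneg (fun h _ => mul_nonneg (hμ h) (hν _))

theorem sum_shift (ν : G → ℝ) (h : G) : ∑ g : G, ν (h⁻¹ * g) = ∑ g : G, ν g :=
  Fintype.sum_equiv (Equiv.mulLeft h⁻¹) _ _ (fun _ => rfl)

theorem sum_shift' (ν : G → ℝ) (g : G) : ∑ h : G, ν (h⁻¹ * g) = ∑ x : G, ν x :=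
  Fintype.sum_equiv ((Equiv.inv G).trans (Equiv.mulRight g)) _ _ (fun _ => rfl)

theorem sum_conv (μ ν : G → ℝ) : ∑ g : G, conv μ ν g = (∑ g : G, μ g) * (∑ g : G, ν g) := by
  unfold conv
  rw [Finset.sum_comm]
  rw [Finset.sum_mul]
  apply Finset.sum_congr rfl
  intro h _
  rw [← Finset.mul_sum, sum_shift]

variable [DecidableEq G]

theorem convPow_nonneg {μ : G → ℝ} (hμ : ∀ g, 0 ≤ μ g) (t : ℕ) (g : G) :
    0 ≤ convPow μ t g := by
  induction t generalizing g with
  | zero =>
    simp only [convPow]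
    split_ifs <;> norm_num
  | succ t ih =>
    simp only [convPow]
    exact conv_nonneg ih hμ g

theorem sum_convPow {μ : G → ℝ} (hμ : ∑ g : G, μ g = 1) (t : ℕ) :
    ∑ g : G, convPow μ t g = 1 := by
  induction t with
  | zero =>
    simp only [convPow]
    simp
  | succ t ih =>
    simp only [convPow]
    rw [sum_conv, ih, hμ, one_mul]

theorem convPow_succ_support {μ : G → ℝ} {t : ℕ} {g : G} (h : convPow μ (t + 1) g ≠ 0) :
    ∃ a b : G, convPow μ t a ≠ 0 ∧ μ b ≠ 0 ∧ g = a * b := by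
  simp only [convPow] at h
  unfold conv at h
  obtain ⟨a, _, ha⟩ := Finset.exists_ne_zero_of_sum_ne_zero h
  refine ⟨a, a⁻¹ * g, ?_, ?_, ?_⟩
  · intro h0
    apply ha
    change convPow μ t a * μ (a⁻¹ * g) = 0
    rw [h0, zero_mul]
  · intro h0
    apply ha
    rw [h0, mul_zero]
  · simp

omit [DecidableEq G] in
/-- Convolving with a probability law does not increase the distance to the uniform law. -/
theorem tvDist_conv_le {μ ν : G → ℝ} (hν : ∀ g, 0 ≤ ν g) (hν1 : ∑ g : G, ν g = 1) :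
    tvDist (conv μ ν) (unifLaw G) ≤ tvDist μ (unifLaw G) := by
  unfold tvDist
  have key : ∀ g : G, conv μ ν g - unifLaw G g = ∑ h : G, (μ h - unifLaw G h) * ν (h⁻¹ * g) := by
    intro g
    unfold conv
    simp only [sub_mul, Finset.sum_sub_distrib]
    congr 1
    unfold unifLaw
    rw [← Finset.mul_sum, sum_shift', hν1, mul_one]
  have h1 : ∑ g : G, |conv μ ν g - unifLaw G g| ≤ ∑ g : G, |μ g - unifLaw G g| := by
    calc ∑ g : G, |conv μ ν g - unifLaw G g|
        = ∑ g : G, |∑ h : G, (μ h - unifLaw G h) * ν (h⁻¹ * g)| := by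
          apply Finset.sum_congr rfl
          intro g _
          rw [key]
      _ ≤ ∑ g : G, ∑ h : G, |μ h - unifLaw G h| * ν (h⁻¹ * g) := by
          apply Finset.sum_le_sum
          intro g _
          refine (Finset.abs_sum_le_sum_abs _ _).trans ?_
          apply Finset.sum_le_sum
          intro h _
          rw [abs_mul, abs_of_nonneg (hν _)]
      _ = ∑ h : G, ∑ g : G, |μ h - unifLaw G h| * ν (h⁻¹ * g) := Finset.sum_comm
      _ = ∑ h : G, |μ h - unifLaw G h| := by
          apply Finset.sum_congr rfl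
          intro h _
          rw [← Finset.mul_sum, sum_shift, hν1, mul_one]
  linarith

theorem tvDist_convPow_antitone {μ : G → ℝ} (hμ : ∀ g, 0 ≤ μ g) (hμ1 : ∑ g : G, μ g = 1)
    {s t : ℕ} (hst : s ≤ t) :
    tvDist (convPow μ t) (unifLaw G) ≤ tvDist (convPow μ s) (unifLaw G) := by
  induction t with
  | zero =>
    have : s = 0 := by omega
    subst this
    exact le_refl _
  | succ t ih =>
    by_cases h : s = t + 1
    · subst h
      exact le_refl _
    · have hs : s ≤ t := by omega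
      refine le_trans ?_ (ih hs)
      exact tvDist_conv_le hμ hμ1

/-- If a probability law is carried by a set `S`, its distance to uniform is at least
`1 - |S| / |G|`. -/
theorem tvDist_ge_of_support {μ : G → ℝ} (hμ1 : ∑ g : G, μ g = 1)
    (S : Finset G) (hS : ∀ g, g ∉ S → μ g = 0) :
    1 - (S.card : ℝ) / (Fintype.card G : ℝ) ≤ tvDist μ (unifLaw G) := by
  unfold tvDist
  have hG : (0 : ℝ) < (Fintype.card G : ℝ) := by
    have : 0 < Fintype.card G := Fintype.card_pos_iff.mpr ⟨1⟩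
    exact_mod_cast this
  have hsplit : ∑ g : G, |μ g - unifLaw G g|
      = ∑ g ∈ S, |μ g - unifLaw G g| + ∑ g ∈ Sᶜ, |μ g - unifLaw G g| := by
    rw [← Finset.sum_add_sum_compl S]
  have h1 : ∑ g ∈ S, (μ g - unifLaw G g) ≤ ∑ g ∈ S, |μ g - unifLaw G g| :=
    Finset.sum_le_sum (fun g _ => le_abs_self _)
  have h2 : ∑ g ∈ Sᶜ, (unifLaw G g - μ g) ≤ ∑ g ∈ Sᶜ, |μ g - unifLaw G g| :=
    Finset.sum_le_sum (fun g _ => by rw [abs_sub_comm]; exact le_abs_self _)
  have h3 : ∑ g ∈ S, μ g = 1 := by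
    rw [← hμ1, ← Finset.sum_add_sum_compl S]
    have : ∑ g ∈ Sᶜ, μ g = 0 :=
      Finset.sum_eq_zero (fun g hg => hS g (Finset.mem_compl.mp hg))
    rw [this, add_zero]
  have h4 : ∑ g ∈ Sᶜ, μ g = 0 :=
    Finset.sum_eq_zero (fun g hg => hS g (Finset.mem_compl.mp hg))
  have h5 : ∑ g ∈ S, unifLaw G g = (S.card : ℝ) / (Fintype.card G : ℝ) := by
    unfold unifLaw
    rw [Finset.sum_const, nsmul_eq_mul]
    ring
  have h6 : ∑ g ∈ Sᶜ, unifLaw G g = 1 - (S.card : ℝ) / (Fintype.card G : ℝ) := by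
    unfold unifLaw
    rw [Finset.sum_const, nsmul_eq_mul, Finset.card_compl]
    have hle : S.card ≤ Fintype.card G := Finset.card_le_univ S
    rw [Nat.cast_sub hle]
    field_simp
  rw [Finset.sum_sub_distrib] at h1 h2
  rw [hsplit]
  linarith

end general

section thorp

theorem thorpLaw_nonneg (m : ℕ) (g : Equiv.Perm (Fin (2 * m))) : 0 ≤ thorpLaw m g := by
  unfold thorpLaw
  positivity

theorem sum_thorpLaw (m : ℕ) : ∑ g : Equiv.Perm (Fin (2 * m)), thorpLaw m g = 1 := by
  unfold thorpLaw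
  rw [← Finset.sum_div]
  have h : ∑ g : Equiv.Perm (Fin (2 * m)),
      ((Finset.card (Finset.univ.filter (fun c : Fin m → Bool => thorpPerm m c = g)) : ℕ) : ℝ)
      = ((Fintype.card (Fin m → Bool) : ℕ) : ℝ) := by
    rw [← Nat.cast_sum]
    congr 1
    rw [← Finset.card_univ]
    exact (Finset.card_eq_sum_card_fiberwise (fun c _ => Finset.mem_univ (thorpPerm m c))).symm
  rw [h]
  simp

theorem thorpLaw_support {m : ℕ} {g : Equiv.Perm (Fin (2 * m))} (h : thorpLaw m g ≠ 0) :
    ∃ c : Fin m → Bool, thorpPerm m c = g := by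
  unfold thorpLaw at h
  by_contra hne
  apply h
  have : Finset.univ.filter (fun c : Fin m → Bool => thorpPerm m c = g) = ∅ := by
    apply Finset.filter_eq_empty_iff.mpr
    intro c _ hc
    exact hne ⟨c, hc⟩
  rw [this]
  simp

end thorp

end Vale.Agent.Lib.P162
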