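import Mathlib
import Vale.Agent.Lib.P162.Defs
import Vale.Agent.Lib.P162.Basic

namespace Vale.Agent.Lib.P162

open Finset

/-- `IsThorpProd m t g`: `g` is a product of `t` Thorp shuffle permutations. -/
def IsThorpProd (m : ℕ) : ℕ → Equiv.Perm (Fin (2 * m)) → Prop
  | 0, g => g = 1
  | t + 1, g => ∃ (h : Equiv.Perm (Fin (2 * m))) (c : Fin m → Bool),
      IsThorpProd m t h ∧ g = h * thorpPerm m c

theorem isThorpProd_of_support (m : ℕ) (t : ℕ) (g : Equiv.Perm (Fin (2 * m)))
    (h : convPow (thorpLaw m) t g ≠ 0) : IsThorpProd m t g := by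
  induction t generalizing g with
  | zero =>
    simp only [convPow] at h
    simp only [IsThorpProd]
    by_contra hne
    exact h (if_neg hne)
  | succ t ih =>
    obtain ⟨a, b, ha, hb, hg⟩ := convPow_succ_support h
    obtain ⟨c, hc⟩ := thorpLaw_support hb
    exact ⟨a, c, ih a ha, by rw [hg, hc]⟩

theorem isThorpProd_split (m : ℕ) (a b : ℕ) (g : Equiv.Perm (Fin (2 * m)))
    (h : IsThorpProd m (a + b) g) :
    ∃ A B : Equiv.Perm (Fin (2 * m)), IsThorpProd m a A ∧ IsThorpProd m b B ∧ g = A * B := by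
  induction b generalizing g with
  | zero =>
    exact ⟨g, 1, h, rfl, by simp⟩
  | succ b ih =>
    have h' : IsThorpProd m ((a + b) + 1) g := h
    obtain ⟨h0, c, hh0, hg⟩ := h'
    obtain ⟨A, B, hA, hB, hAB⟩ := ih h0 hh0
    refine ⟨A, B * thorpPerm m c, hA, ⟨B, c, hB, rfl⟩, ?_⟩
    rw [hg, hAB, mul_assoc]

theorem thorpPerm_apply (m : ℕ) (c : Fin m → Bool) (p : Fin (2 * m)) :
    thorpPerm m c p = thorpFun m c p := rfl

theorem thorpPerm_div_two (m : ℕ) (c : Fin m → Bool) (p : Fin (2 * m)) :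
    (thorpPerm m c p).val / 2 = p.val % m := by
  rw [thorpPerm_apply]
  simp only [thorpFun]
  split_ifs <;> omega

theorem thorpPerm_mod_two (m : ℕ) (c : Fin m → Bool) (p : Fin (2 * m)) (hp : p.val % m < m) :
    (thorpPerm m c p).val % 2 = 0 ↔ decide (m ≤ p.val) = c ⟨p.val % m, hp⟩ := by
  rw [thorpPerm_apply]
  simp only [thorpFun]
  split_ifs with h
  · constructor
    · intro _; exact h
    · intro _; omega
  · constructor
    · intro h2; omega
    · intro h2; exact absurd h2 h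

/-- After `j` Thorp shuffles of `2 ^ (k+1)` cards the top `k+1-j` binary digits of the new position
are the bottom `k+1-j` digits of the old position. -/
theorem isThorpProd_shift (k : ℕ) (j : ℕ) (hj : j ≤ k + 1) (g : Equiv.Perm (Fin (2 * 2 ^ k)))
    (h : IsThorpProd (2 ^ k) j g) (x : Fin (2 * 2 ^ k)) :
    (g x).val / 2 ^ j = x.val % 2 ^ (k + 1 - j) := by
  induction j generalizing g x with
  | zero =>
    simp only [IsThorpProd] at h
    subst h
    have hx := x.isLt
    have : 2 ^ (k + 1 - 0) = 2 * 2 ^ k := by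
      rw [Nat.sub_zero, pow_succ]; ring
    rw [this]
    simp only [Equiv.Perm.coe_one, id_eq, pow_zero, Nat.div_one]
    exact (Nat.mod_eq_of_lt hx).symm
  | succ j ih =>
    obtain ⟨h0, c, hh0, hg⟩ := h
    have hj' : j ≤ k + 1 := by omega
    have e1 := ih hj' h0 hh0 (thorpPerm (2 ^ k) c x)
    have e2 := thorpPerm_div_two (2 ^ k) c x
    rw [hg]
    simp only [Equiv.Perm.coe_mul, Function.comp_apply]
    set y := thorpPerm (2 ^ k) c x with hy
    set z := h0 y with hz
    -- z / 2^(j+1) = (z / 2^j) / 2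
    have e3 : z.val / 2 ^ (j + 1) = (z.val / 2 ^ j) / 2 := by
      rw [pow_succ, Nat.div_div_eq_div_mul]
    rw [e3, e1]
    -- (y % 2^(k+1-j)) / 2 = (y / 2) % 2^(k-j)
    have e4 : k + 1 - j = (k - j) + 1 := by omega
    have e5 : k + 1 - (j + 1) = k - j := by omega
    rw [e4, e5]
    have e6 : y.val % 2 ^ (k - j + 1) / 2 = (y.val / 2) % 2 ^ (k - j) := by
      rw [pow_succ]
      exact Nat.mod_mul_left_div_self _ _ _
    rw [e6, e2]
    have e7 : (2 : ℕ) ^ (k - j) ∣ 2 ^ k := pow_dvd_pow 2 (by omega)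
    exact Nat.mod_mod_of_dvd _ e7

end Vale.Agent.Lib.P162
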