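import Mathlib
import Vale.Agent.Lib.P162.Defs
import Vale.Agent.Lib.P162.Basic
import Vale.Agent.Lib.P162.Structure

namespace Vale.Agent.Lib.P162

open Finset

theorem card_thorp_even_aux (m P : ℕ) (hm : m = 2 * P) (hPpos : 0 < P) (c : Fin m → Bool) :
    (Finset.univ.filter (fun u : Fin (2 * m) =>
      (u.val / P) % 2 = 0 ∧ (thorpPerm m c u).val % 2 = 0)).card = P := by
  have hmpos : 0 < m := by omega
  have hcard : (Finset.univ.filter (fun u : Fin (2 * m) =>
      (u.val / P) % 2 = 0 ∧ (thorpPerm m c u).val % 2 = 0)).card = (Finset.range P).card := by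
    apply Finset.card_bij (fun u _ => u.val % m)
    · intro u hu
      simp only [Finset.mem_filter, Finset.mem_univ, true_and] at hu
      have hu1 := hu.1
      have hlt := u.isLt
      rw [Finset.mem_range]
      have hq : u.val / P < 4 := by
        rw [Nat.div_lt_iff_lt_mul hPpos]; omega
      have hdm := Nat.div_add_mod u.val P
      have hr := Nat.mod_lt u.val hPpos
      have hcase : u.val / P = 0 ∨ u.val / P = 2 := by
        generalize u.val / P = q at hu1 hq
        interval_cases q <;> simp_all
      rcases hcase with h0 | h2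
      · rw [h0] at hdm
        have h3 : u.val < m := by omega
        rw [Nat.mod_eq_of_lt h3]; omega
      · rw [h2] at hdm
        have h3 : m ≤ u.val := by omega
        rw [Nat.mod_eq_sub_mod h3, Nat.mod_eq_of_lt (by omega)]; omega
    · intro u hu v hv huv
      simp only [Finset.mem_filter, Finset.mem_univ, true_and] at hu hv
      have hum : u.val % m < m := Nat.mod_lt _ hmpos
      have hvm : v.val % m < m := Nat.mod_lt _ hmpos
      have h1 := (thorpPerm_mod_two m c u hum).mp hu.2
      have h2 := (thorpPerm_mod_two m c v hvm).mp hv.2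
      have hc : c ⟨u.val % m, hum⟩ = c ⟨v.val % m, hvm⟩ := by
        congr 1
        exact Fin.ext huv
      have hdec : decide (m ≤ u.val) = decide (m ≤ v.val) := by
        rw [h1, h2, hc]
      have hle : (m ≤ u.val) ↔ (m ≤ v.val) := by
        constructor
        · intro hh
          have : decide (m ≤ u.val) = true := decide_eq_true hh
          rw [hdec] at this
          exact of_decide_eq_true this
        · intro hh
          have : decide (m ≤ v.val) = true := decide_eq_true hh
          rw [← hdec] at this
          exact of_decide_eq_true this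
      have hu' := u.isLt
      have hv' := v.isLt
      apply Fin.ext
      by_cases hh : m ≤ u.val
      · have hh' := hle.mp hh
        have e1 : u.val % m = u.val - m := by
          rw [Nat.mod_eq_sub_mod hh, Nat.mod_eq_of_lt (by omega)]
        have e2 : v.val % m = v.val - m := by
          rw [Nat.mod_eq_sub_mod hh', Nat.mod_eq_of_lt (by omega)]
        omega
      · have hh' : ¬ m ≤ v.val := fun h2 => hh (hle.mpr h2)
        have e1 : u.val % m = u.val := Nat.mod_eq_of_lt (by omega)
        have e2 : v.val % m = v.val := Nat.mod_eq_of_lt (by omega)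
        omega
    · intro j hj
      rw [Finset.mem_range] at hj
      have hjm : j < m := by omega
      by_cases hc : c ⟨j, hjm⟩ = true
      · have hu : j + m < 2 * m := by omega
        have hmod : (j + m) % m = j := by
          rw [Nat.add_mod_right, Nat.mod_eq_of_lt hjm]
        refine ⟨⟨j + m, hu⟩, ?_, hmod⟩
        simp only [Finset.mem_filter, Finset.mem_univ, true_and]
        constructor
        · have : (j + m) / P = 2 := by
            rw [hm]
            rw [show j + 2 * P = j + P * 2 by ring]
            rw [Nat.add_mul_div_left _ _ hPpos, Nat.div_eq_of_lt hj]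
          rw [this]
        · have hum : (j + m) % m < m := Nat.mod_lt _ hmpos
          apply (thorpPerm_mod_two m c ⟨j + m, hu⟩ hum).mpr
          have e : (⟨(j + m) % m, hum⟩ : Fin m) = ⟨j, hjm⟩ := Fin.ext hmod
          rw [e, hc]
          exact decide_eq_true (Nat.le_add_left m j)
      · have hc' : c ⟨j, hjm⟩ = false := by
          cases hh : c ⟨j, hjm⟩
          · rfl
          · exact absurd hh hc
        have hu : j < 2 * m := by omega
        have hmod : j % m = j := Nat.mod_eq_of_lt hjm
        refine ⟨⟨j, hu⟩, ?_, hmod⟩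
        simp only [Finset.mem_filter, Finset.mem_univ, true_and]
        constructor
        · rw [Nat.div_eq_of_lt hj]
        · have hum : j % m < m := Nat.mod_lt _ hmpos
          apply (thorpPerm_mod_two m c ⟨j, hu⟩ hum).mpr
          have e : (⟨j % m, hum⟩ : Fin m) = ⟨j, hjm⟩ := Fin.ext hmod
          rw [e, hc']
          exact decide_eq_false (Nat.not_le.mpr hjm)
  rw [hcard, Finset.card_range]

theorem balance_aux (m P : ℕ) (hm : m = 2 * P) (hPpos : 0 < P)
    (A B : Equiv.Perm (Fin (2 * m))) (c : Fin m → Bool)
    (sA : ∀ v : Fin (2 * m), (A v).val / m = v.val % 2)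
    (sB : ∀ x : Fin (2 * m), (B x).val / P = x.val % 4) :
    (Finset.univ.filter (fun x : Fin (2 * m) =>
      x.val % 2 = 0 ∧ (A (thorpPerm m c (B x))).val < m)).card = P := by
  have hmpos : 0 < m := by omega
  have keyA : ∀ v : Fin (2 * m), (A v).val < m ↔ v.val % 2 = 0 := by
    intro v
    have h1 := sA v
    have hlt := (A v).isLt
    constructor
    · intro hv
      have : (A v).val / m = 0 := Nat.div_eq_of_lt hv
      omega
    · intro hv
      have h0 : (A v).val / m = 0 := by omega
      by_contra hge
      have hge' : m ≤ (A v).val := Nat.le_of_not_lt hge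
      have : 0 < (A v).val / m := Nat.div_pos hge' hmpos
      omega
  have keyB : ∀ x : Fin (2 * m), ((B x).val / P) % 2 = 0 ↔ x.val % 2 = 0 := by
    intro x
    rw [sB x]
    have : x.val % 4 % 2 = x.val % 2 := Nat.mod_mod_of_dvd _ (by norm_num)
    rw [this]
  rw [← card_thorp_even_aux m P hm hPpos c]
  apply Finset.card_bij (fun x _ => B x)
  · intro x hx
    simp only [Finset.mem_filter, Finset.mem_univ, true_and] at hx ⊢
    exact ⟨(keyB x).mpr hx.1, (keyA _).mp hx.2⟩
  · intro x _ y _ hxy
    exact B.injective hxy
  · intro u hu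
    simp only [Finset.mem_filter, Finset.mem_univ, true_and] at hu
    refine ⟨B.symm u, ?_, by simp⟩
    simp only [Finset.mem_filter, Finset.mem_univ, true_and]
    constructor
    · apply (keyB _).mp
      rw [Equiv.apply_symm_apply]
      exact hu.1
    · rw [Equiv.apply_symm_apply]
      exact (keyA _).mpr hu.2

/-- Structural constraint: after `2k` Thorp shuffles of `2^(k+1)` cards (`k ≥ 1`), exactly
`2^(k-1)` of the `2^k` cards that started at even positions are in the top half. -/
theorem thorp_balance (k : ℕ) (hk : 1 ≤ k) (g : Equiv.Perm (Fin (2 * 2 ^ k)))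
    (h : IsThorpProd (2 ^ k) (2 * k) g) :
    (Finset.univ.filter (fun x : Fin (2 * 2 ^ k) =>
      x.val % 2 = 0 ∧ (g x).val < 2 ^ k)).card = 2 ^ (k - 1) := by
  have h' : IsThorpProd (2 ^ k) ((k + 1) + (k - 1)) g := by
    rwa [show (k + 1) + (k - 1) = 2 * k by omega]
  obtain ⟨A', B, hA', hB, hg⟩ := isThorpProd_split _ _ _ _ h'
  obtain ⟨A, c, hA, hA'eq⟩ := hA'
  have sA := isThorpProd_shift k k (by omega) A hA
  have sB := isThorpProd_shift k (k - 1) (by omega) B hB
  have e1 : k + 1 - k = 1 := by omega
  have e2 : k + 1 - (k - 1) = 2 := by omega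
  rw [e1] at sA
  rw [e2] at sB
  have hP : 2 ^ k = 2 * 2 ^ (k - 1) := by
    conv_lhs => rw [show k = (k - 1) + 1 by omega]
    rw [pow_succ]; ring
  have hPpos : 0 < 2 ^ (k - 1) := by positivity
  have hgx : ∀ x, g x = A (thorpPerm (2 ^ k) c (B x)) := by
    intro x
    rw [hg, hA'eq]
    rfl
  have := balance_aux (2 ^ k) (2 ^ (k - 1)) hP hPpos A B c
    (fun v => by have := sA v; simpa using this)
    (fun x => by have := sB x; simpa using this)
  rw [← this]
  congr 1
  ext x
  simp only [Finset.mem_filter, Finset.mem_univ, true_and]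
  rw [hgx]

end Vale.Agent.Lib.P162
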