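import Mathlib
import Vale.Agent.Lib.P162.Defs
import Vale.Agent.Lib.P162.Basic
import Vale.Agent.Lib.P162.Structure

namespace Vale.Agent.Lib.P162

open Finset

section general

variable {G : Type*} [Group G] [Fintype G]

/-- Expectation of a test function under a convolution. -/
theorem sum_mul_conv (μ ν : G → ℝ) (F : G → ℝ) :
    ∑ g : G, F g * conv μ ν g = ∑ a : G, ∑ b : G, μ a * ν b * F (a * b) := by
  unfold conv
  simp only [Finset.mul_sum]
  rw [Finset.sum_comm]
  apply Finset.sum_congr rfl
  intro a _
  have h := Fintype.sum_equiv (Equiv.mulLeft a⁻¹) (fun g => F g * (μ a * ν (a⁻¹ * g)))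
    (fun b => μ a * ν b * F (a * b)) (by
      intro g
      simp only [Equiv.coe_mulLeft]
      rw [mul_inv_cancel_left]
      ring)
  exact h

theorem conv_assoc (α β γ : G → ℝ) : conv (conv α β) γ = conv α (conv β γ) := by
  funext g
  unfold conv
  simp only [Finset.sum_mul, Finset.mul_sum]
  rw [Finset.sum_comm]
  apply Finset.sum_congr rfl
  intro k _
  have h := Fintype.sum_equiv (Equiv.mulLeft k⁻¹)
    (fun h => α k * β (k⁻¹ * h) * γ (h⁻¹ * g))
    (fun h' => α k * (β h' * γ (h'⁻¹ * (k⁻¹ * g)))) (by
      intro h
      simp only [Equiv.coe_mulLeft, mul_inv_rev, inv_inv]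
      rw [mul_assoc h⁻¹ k (k⁻¹ * g), mul_inv_cancel_left]
      ring)
  exact h

variable [DecidableEq G]

theorem conv_one_right (μ : G → ℝ) :
    conv μ (fun g => if g = 1 then (1 : ℝ) else 0) = μ := by
  funext g
  unfold conv
  rw [Finset.sum_eq_single g]
  · simp
  · intro h _ hne
    have : ¬ (h⁻¹ * g = 1) := by
      intro h1
      apply hne
      have : g = h := by
        have := congrArg (fun z => h * z) h1
        simpa using this
      exact this.symm
    simp [this]
  · intro h; exact absurd (Finset.mem_univ g) h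

theorem convPow_add (μ : G → ℝ) (s t : ℕ) :
    convPow μ (s + t) = conv (convPow μ s) (convPow μ t) := by
  induction t with
  | zero =>
    simp only [Nat.add_zero]
    have : convPow μ 0 = (fun g : G => if g = 1 then (1 : ℝ) else 0) := rfl
    rw [this, conv_one_right]
  | succ t ih =>
    have h1 : convPow μ (s + (t + 1)) = conv (convPow μ (s + t)) μ := rfl
    have h2 : convPow μ (t + 1) = conv (convPow μ t) μ := rfl
    rw [h1, h2, ih, conv_assoc]

end general

/-- Expectation under the one-shuffle law is the average over coin vectors. -/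
theorem sum_thorpLaw_mul (m : ℕ) (F : Equiv.Perm (Fin (2 * m)) → ℝ) :
    ∑ s : Equiv.Perm (Fin (2 * m)), thorpLaw m s * F s
      = (∑ c : Fin m → Bool, F (thorpPerm m c)) / 2 ^ m := by
  unfold thorpLaw
  have h : ∀ s : Equiv.Perm (Fin (2 * m)),
      ((Finset.univ.filter (fun c : Fin m → Bool => thorpPerm m c = s)).card : ℝ) / 2 ^ m * F s
      = (∑ c ∈ Finset.univ.filter (fun c : Fin m → Bool => thorpPerm m c = s),
          F (thorpPerm m c)) / 2 ^ m := by
    intro s
    have : ∑ c ∈ Finset.univ.filter (fun c : Fin m → Bool => thorpPerm m c = s),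
        F (thorpPerm m c)
        = ∑ c ∈ Finset.univ.filter (fun c : Fin m → Bool => thorpPerm m c = s), F s := by
      apply Finset.sum_congr rfl
      intro c hc
      rw [(Finset.mem_filter.mp hc).2]
    rw [this, Finset.sum_const, nsmul_eq_mul]
    ring
  rw [Finset.sum_congr rfl (fun s _ => h s), ← Finset.sum_div]
  congr 1
  exact Finset.sum_fiberwise (Finset.univ) (fun c => thorpPerm m c) (fun c => F (thorpPerm m c))

end Vale.Agent.Lib.P162
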