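import Mathlib
import Vale.Agent.Lib.P162.Defs

namespace Vale.Agent.Lib.P162

open Finset

/-- Number of cards that start at an even position and end in the top half. -/
def evTop (m : ℕ) (g : Equiv.Perm (Fin (2 * m))) : ℕ :=
  (Finset.univ.filter (fun x : Fin (2 * m) => x.val % 2 = 0 ∧ (g x).val < m)).card

theorem card_even (m : ℕ) :
    (Finset.univ.filter (fun x : Fin (2 * m) => x.val % 2 = 0)).card = m := by
  have h : (Finset.univ.filter (fun x : Fin (2 * m) => x.val % 2 = 0)).card
      = (Finset.range m).card := by
    apply Finset.card_bij (fun x _ => x.val / 2)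
    · intro x hx
      have := x.isLt
      rw [Finset.mem_range]
      omega
    · intro x hx y hy hxy
      simp only [Finset.mem_filter, Finset.mem_univ, true_and] at hx hy
      apply Fin.ext
      omega
    · intro j hj
      rw [Finset.mem_range] at hj
      refine ⟨⟨2 * j, by omega⟩, ?_, ?_⟩
      · simp only [Finset.mem_filter, Finset.mem_univ, true_and]
        omega
      · simp
  rw [h, Finset.card_range]

theorem card_lt (m : ℕ) :
    (Finset.univ.filter (fun y : Fin (2 * m) => y.val < m)).card = m := by
  have h : (Finset.univ.filter (fun y : Fin (2 * m) => y.val < m)).card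
      = (Finset.range m).card := by
    apply Finset.card_bij (fun x _ => x.val)
    · intro x hx
      simp only [Finset.mem_filter, Finset.mem_univ, true_and] at hx
      rw [Finset.mem_range]
      exact hx
    · intro x hx y hy hxy
      exact Fin.ext hxy
    · intro j hj
      rw [Finset.mem_range] at hj
      exact ⟨⟨j, by omega⟩, by simp [hj], rfl⟩
  rw [h, Finset.card_range]

theorem card_top (m : ℕ) (g : Equiv.Perm (Fin (2 * m))) :
    (Finset.univ.filter (fun x : Fin (2 * m) => (g x).val < m)).card = m := by
  refine Eq.trans ?_ (card_lt m)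
  apply Finset.card_bij (fun x _ => g x)
  · intro x hx
    simp only [Finset.mem_filter, Finset.mem_univ, true_and] at hx ⊢
    exact hx
  · intro x _ y _ hxy
    exact g.injective hxy
  · intro y hy
    simp only [Finset.mem_filter, Finset.mem_univ, true_and] at hy
    exact ⟨g.symm y, by simp [hy], by simp⟩

theorem evTop_le (m : ℕ) (g : Equiv.Perm (Fin (2 * m))) : evTop m g ≤ m := by
  unfold evTop
  refine le_of_le_of_eq ?_ (card_even m)
  apply Finset.card_le_card
  intro x hx
  simp only [Finset.mem_filter, Finset.mem_univ, true_and] at hx ⊢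
  exact hx.1

/-- even cards in the bottom half -/
theorem card_even_bot (m : ℕ) (g : Equiv.Perm (Fin (2 * m))) :
    (Finset.univ.filter (fun x : Fin (2 * m) => x.val % 2 = 0 ∧ ¬ (g x).val < m)).card
      = m - evTop m g := by
  have h := Finset.card_filter_add_card_filter_not
    (s := Finset.univ.filter (fun x : Fin (2 * m) => x.val % 2 = 0))
    (fun x : Fin (2 * m) => (g x).val < m)
  rw [Finset.filter_filter, Finset.filter_filter, card_even] at h
  unfold evTop
  omega

/-- odd cards in the top half -/
theorem card_odd_top (m : ℕ) (g : Equiv.Perm (Fin (2 * m))) :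
    (Finset.univ.filter (fun x : Fin (2 * m) => ¬ x.val % 2 = 0 ∧ (g x).val < m)).card
      = m - evTop m g := by
  have h := Finset.card_filter_add_card_filter_not
    (s := Finset.univ.filter (fun x : Fin (2 * m) => (g x).val < m))
    (fun x : Fin (2 * m) => x.val % 2 = 0)
  rw [Finset.filter_filter, Finset.filter_filter, card_top] at h
  have e1 : (Finset.univ.filter (fun x : Fin (2 * m) => (g x).val < m ∧ x.val % 2 = 0))
      = Finset.univ.filter (fun x : Fin (2 * m) => x.val % 2 = 0 ∧ (g x).val < m) := by
    ext x; simp only [Finset.mem_filter, Finset.mem_univ, true_and]; tauto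
  have e2 : (Finset.univ.filter (fun x : Fin (2 * m) => (g x).val < m ∧ ¬ x.val % 2 = 0))
      = Finset.univ.filter (fun x : Fin (2 * m) => ¬ x.val % 2 = 0 ∧ (g x).val < m) := by
    ext x; simp only [Finset.mem_filter, Finset.mem_univ, true_and]; tauto
  rw [e1, e2] at h
  unfold evTop
  omega

/-- odd cards in the bottom half -/
theorem card_odd_bot (m : ℕ) (g : Equiv.Perm (Fin (2 * m))) :
    (Finset.univ.filter (fun x : Fin (2 * m) => ¬ x.val % 2 = 0 ∧ ¬ (g x).val < m)).card
      = evTop m g := by
  have h := Finset.card_filter_add_card_filter_not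
    (s := (Finset.univ : Finset (Fin (2 * m))))
    (fun x : Fin (2 * m) => x.val % 2 = 0)
  have h2 := Finset.card_filter_add_card_filter_not
    (s := Finset.univ.filter (fun x : Fin (2 * m) => ¬ x.val % 2 = 0))
    (fun x : Fin (2 * m) => (g x).val < m)
  rw [Finset.filter_filter, Finset.filter_filter] at h2
  rw [card_even, Finset.card_univ, Fintype.card_fin] at h
  rw [card_odd_top] at h2
  have := evTop_le m g
  omega

theorem evTop_mul_swap (m : ℕ) (g : Equiv.Perm (Fin (2 * m))) (a b : Fin (2 * m))
    (ha : a.val % 2 = 0) (hga : ¬ (g a).val < m) (hb : ¬ b.val % 2 = 0) (hgb : (g b).val < m) :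
    evTop m (g * Equiv.swap a b) = evTop m g + 1 := by
  unfold evTop
  have hab : a ≠ b := by
    intro h
    rw [h] at ha
    exact hb ha
  have hnot : a ∉ Finset.univ.filter (fun x : Fin (2 * m) => x.val % 2 = 0 ∧ (g x).val < m) := by
    simp only [Finset.mem_filter, Finset.mem_univ, true_and]
    intro h
    exact hga h.2
  rw [← Finset.card_insert_of_notMem hnot]
  congr 1
  ext x
  simp only [Finset.mem_filter, Finset.mem_univ, true_and, Finset.mem_insert]
  simp only [Equiv.Perm.coe_mul, Function.comp_apply]
  by_cases hxa : x = a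
  · subst hxa
    rw [Equiv.swap_apply_left]
    constructor
    · intro _; exact Or.inl rfl
    · intro _; exact ⟨ha, hgb⟩
  · by_cases hxb : x = b
    · subst hxb
      rw [Equiv.swap_apply_right]
      constructor
      · intro h; exact absurd h.1 hb
      · intro h
        rcases h with h | h
        · exact absurd h hxa
        · exact absurd h.1 hb
    · rw [Equiv.swap_apply_of_ne_of_ne hxa hxb]
      constructor
      · intro h; exact Or.inr h
      · intro h
        rcases h with h | h
        · exact absurd h hxa
        · exact h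

/-- The set of permutations with a prescribed number of even cards in the top half. -/
noncomputable def levelSet (m j : ℕ) : Finset (Equiv.Perm (Fin (2 * m))) :=
  Finset.univ.filter (fun g => evTop m g = j)

/-- Double counting: `(m-j)^2 |S_j| = (j+1)^2 |S_{j+1}|`. -/
theorem levelSet_rec (m j : ℕ) :
    (levelSet m j).card * ((m - j) * (m - j))
      = (levelSet m (j + 1)).card * ((j + 1) * (j + 1)) := by
  classical
  let X : Equiv.Perm (Fin (2 * m)) → Finset (Fin (2 * m) × Fin (2 * m)) := fun g =>
    (Finset.univ.filter (fun x : Fin (2 * m) => x.val % 2 = 0 ∧ ¬ (g x).val < m)) ×ˢ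
    (Finset.univ.filter (fun x : Fin (2 * m) => ¬ x.val % 2 = 0 ∧ (g x).val < m))
  let Y : Equiv.Perm (Fin (2 * m)) → Finset (Fin (2 * m) × Fin (2 * m)) := fun g =>
    (Finset.univ.filter (fun x : Fin (2 * m) => x.val % 2 = 0 ∧ (g x).val < m)) ×ˢ
    (Finset.univ.filter (fun x : Fin (2 * m) => ¬ x.val % 2 = 0 ∧ ¬ (g x).val < m))
  have hX : ∀ g ∈ levelSet m j, (X g).card = (m - j) * (m - j) := by
    intro g hg
    simp only [levelSet, Finset.mem_filter, Finset.mem_univ, true_and] at hg
    simp only [X]
    rw [Finset.card_product, card_even_bot, card_odd_top, hg]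
  have hY : ∀ g ∈ levelSet m (j + 1), (Y g).card = (j + 1) * (j + 1) := by
    intro g hg
    simp only [levelSet, Finset.mem_filter, Finset.mem_univ, true_and] at hg
    simp only [Y]
    rw [Finset.card_product, card_odd_bot]
    change evTop m g * evTop m g = _
    rw [hg]
  have h1 : ((levelSet m j).sigma X).card = (levelSet m j).card * ((m - j) * (m - j)) := by
    rw [Finset.card_sigma, Finset.sum_congr rfl hX, Finset.sum_const, smul_eq_mul]
  have h2 : ((levelSet m (j + 1)).sigma Y).card
      = (levelSet m (j + 1)).card * ((j + 1) * (j + 1)) := by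
    rw [Finset.card_sigma, Finset.sum_congr rfl hY, Finset.sum_const, smul_eq_mul]
  rw [← h1, ← h2]
  apply Finset.card_bij'
    (fun (p : (_ : Equiv.Perm (Fin (2 * m))) × (Fin (2 * m) × Fin (2 * m))) _ =>
      (⟨p.1 * Equiv.swap p.2.1 p.2.2, p.2⟩ :
        (_ : Equiv.Perm (Fin (2 * m))) × (Fin (2 * m) × Fin (2 * m))))
    (fun (p : (_ : Equiv.Perm (Fin (2 * m))) × (Fin (2 * m) × Fin (2 * m))) _ =>
      (⟨p.1 * Equiv.swap p.2.1 p.2.2, p.2⟩ :
        (_ : Equiv.Perm (Fin (2 * m))) × (Fin (2 * m) × Fin (2 * m))))
  · rintro ⟨g, a, b⟩ hp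
    simp only [Finset.mem_sigma, levelSet, Finset.mem_filter, Finset.mem_univ, true_and, X,
      Finset.mem_product] at hp
    obtain ⟨hg, ⟨ha, hga⟩, ⟨hb, hgb⟩⟩ := hp
    simp only [Finset.mem_sigma, levelSet, Finset.mem_filter, Finset.mem_univ, true_and, Y,
      Finset.mem_product]
    simp only [Equiv.Perm.coe_mul, Function.comp_apply, Equiv.swap_apply_left,
      Equiv.swap_apply_right]
    refine ⟨?_, ⟨ha, hgb⟩, ⟨hb, hga⟩⟩
    rw [evTop_mul_swap m g a b ha hga hb hgb, hg]
  · rintro ⟨g, a, b⟩ hp
    simp only [Finset.mem_sigma, levelSet, Finset.mem_filter, Finset.mem_univ, true_and, Y,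
      Finset.mem_product] at hp
    obtain ⟨hg, ⟨ha, hga⟩, ⟨hb, hgb⟩⟩ := hp
    simp only [Finset.mem_sigma, levelSet, Finset.mem_filter, Finset.mem_univ, true_and, X,
      Finset.mem_product]
    simp only [Equiv.Perm.coe_mul, Function.comp_apply, Equiv.swap_apply_left,
      Equiv.swap_apply_right]
    refine ⟨?_, ⟨ha, hgb⟩, ⟨hb, hga⟩⟩
    have hga' : ¬ ((g * Equiv.swap a b) a).val < m := by
      simp only [Equiv.Perm.coe_mul, Function.comp_apply, Equiv.swap_apply_left]
      exact hgb
    have hgb' : ((g * Equiv.swap a b) b).val < m := by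
      simp only [Equiv.Perm.coe_mul, Function.comp_apply, Equiv.swap_apply_right]
      exact hga
    have key := evTop_mul_swap m (g * Equiv.swap a b) a b ha hga' hb hgb'
    rw [mul_assoc, Equiv.swap_mul_self, mul_one, hg] at key
    omega
  · rintro ⟨g, a, b⟩ _
    simp only [mul_assoc, Equiv.swap_mul_self, mul_one]
  · rintro ⟨g, a, b⟩ _
    simp only [mul_assoc, Equiv.swap_mul_self, mul_one]

theorem levelSet_choose (m j : ℕ) :
    (levelSet m j).card = (m.choose j) ^ 2 * (levelSet m 0).card := by
  induction j with
  | zero => simp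
  | succ j ih =>
    have h := levelSet_rec m j
    rw [ih] at h
    have hc := Nat.choose_succ_right_eq m j
    have hpos : 0 < (j + 1) * (j + 1) := by positivity
    apply Nat.eq_of_mul_eq_mul_right hpos
    rw [← h]
    calc m.choose j ^ 2 * (levelSet m 0).card * ((m - j) * (m - j))
        = (m.choose j * (m - j)) ^ 2 * (levelSet m 0).card := by ring
      _ = (m.choose (j + 1) * (j + 1)) ^ 2 * (levelSet m 0).card := by rw [hc]
      _ = m.choose (j + 1) ^ 2 * (levelSet m 0).card * ((j + 1) * (j + 1)) := by ring

theorem sum_levelSet (m : ℕ) :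
    ∑ j ∈ Finset.range (m + 1), (levelSet m j).card = (2 * m).factorial := by
  have h : (Finset.univ : Finset (Equiv.Perm (Fin (2 * m)))).card
      = ∑ j ∈ Finset.range (m + 1), (levelSet m j).card := by
    apply Finset.card_eq_sum_card_fiberwise
    intro g _
    rw [Finset.mem_coe, Finset.mem_range]
    have := evTop_le m g
    omega
  rw [← h, Finset.card_univ, Fintype.card_perm, Fintype.card_fin]

/-- Exact count: `|S_j| * C(2m, m) = C(m, j)^2 * (2m)!`. -/
theorem levelSet_card (m j : ℕ) :
    (levelSet m j).card * (2 * m).choose m = (m.choose j) ^ 2 * (2 * m).factorial := by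
  have h0 : (levelSet m 0).card * (2 * m).choose m = (2 * m).factorial := by
    rw [← sum_levelSet m, ← Nat.sum_range_choose_sq m, Finset.mul_sum]
    apply Finset.sum_congr rfl
    intro i _
    rw [levelSet_choose m i]
    ring
  rw [levelSet_choose m j, mul_assoc, h0]

end Vale.Agent.Lib.P162
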