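import Mathlib
import Vale.Agent.Lib.P162.Defs
import Vale.Agent.Lib.P162.Basic
import Vale.Agent.Lib.P162.Structure
import Vale.Agent.Lib.P162.Count
import Vale.Agent.Lib.P162.ConvAlg

namespace Vale.Agent.Lib.P162

open Finset

/-- Middle-step structure: if `A`, `B` are products of `k` Thorp shuffles of `2^(k+1)` cards, then
the number of even cards sent to the top half by `A * thorpPerm c * B` is the number of `false`
coins of the middle shuffle. -/
theorem evTop_mid (k : ℕ) (A B : Equiv.Perm (Fin (2 * 2 ^ k))) (hA : IsThorpProd (2 ^ k) k A)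
    (hB : IsThorpProd (2 ^ k) k B) (c : Fin (2 ^ k) → Bool) :
    evTop (2 ^ k) (A * thorpPerm (2 ^ k) c * B)
      = (Finset.univ.filter (fun i : Fin (2 ^ k) => c i = false)).card := by
  have hmpos : 0 < 2 ^ k := by positivity
  have hshift : ∀ (g : Equiv.Perm (Fin (2 * 2 ^ k))), IsThorpProd (2 ^ k) k g →
      ∀ x : Fin (2 * 2 ^ k), ((g x).val < 2 ^ k ↔ x.val % 2 = 0) := by
    intro g hg x
    have h := isThorpProd_shift k k (by omega) g hg x
    have e : k + 1 - k = 1 := by omega
    rw [e, pow_one] at h
    rw [← h, Nat.div_eq_zero_iff]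
    constructor
    · intro hlt; right; exact hlt
    · rintro (h0 | hlt)
      · omega
      · exact hlt
  have hBx := hshift B hB
  have hAx := hshift A hA
  have hmid : ∀ (y : Fin (2 * 2 ^ k)) (hy : y.val < 2 ^ k),
      ((thorpPerm (2 ^ k) c y).val % 2 = 0 ↔ c ⟨y.val, hy⟩ = false) := by
    intro y hy
    have hp : y.val % 2 ^ k < 2 ^ k := Nat.mod_lt _ hmpos
    rw [thorpPerm_mod_two (2 ^ k) c y hp]
    have e1 : decide (2 ^ k ≤ y.val) = false := by
      rw [decide_eq_false_iff_not]; omega
    have e2 : (⟨y.val % 2 ^ k, hp⟩ : Fin (2 ^ k)) = ⟨y.val, hy⟩ := Fin.ext (Nat.mod_eq_of_lt hy)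
    rw [e1, e2]
    constructor
    · intro h; exact h.symm
    · intro h; exact h.symm
  unfold evTop
  apply Finset.card_bij (fun x hx => (⟨(B x).val, by
      simp only [Finset.mem_filter, Finset.mem_univ, true_and] at hx
      exact (hBx x).mpr hx.1⟩ : Fin (2 ^ k)))
  · intro x hx
    simp only [Finset.mem_filter, Finset.mem_univ, true_and] at hx ⊢
    have hy : (B x).val < 2 ^ k := (hBx x).mpr hx.1
    have h2 := hx.2
    simp only [Equiv.Perm.coe_mul, Function.comp_apply] at h2
    exact (hmid (B x) hy).mp ((hAx _).mp h2)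
  · intro x hx x' hx' h
    have h' : (B x).val = (B x').val := by
      have := congrArg Fin.val h
      simpa using this
    exact B.injective (Fin.ext h')
  · intro i hi
    simp only [Finset.mem_filter, Finset.mem_univ, true_and] at hi
    have hi2 : i.val < 2 * 2 ^ k := by have := i.isLt; omega
    have hBB : B (B.symm ⟨i.val, hi2⟩) = ⟨i.val, hi2⟩ := B.apply_symm_apply _
    refine ⟨B.symm ⟨i.val, hi2⟩, ?_, ?_⟩
    · simp only [Finset.mem_filter, Finset.mem_univ, true_and]
      constructor
      · apply (hBx _).mp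
        rw [hBB]; exact i.isLt
      · simp only [Equiv.Perm.coe_mul, Function.comp_apply]
        apply (hAx _).mpr
        rw [hBB]
        apply (hmid ⟨i.val, hi2⟩ i.isLt).mpr
        exact hi
    · apply Fin.ext
      simp only [hBB]

/-- The number of coin vectors with exactly `j` coins equal to `false`. -/
theorem card_coins_false (m j : ℕ) :
    (Finset.univ.filter (fun c : Fin m → Bool =>
      (Finset.univ.filter (fun i : Fin m => c i = false)).card = j)).card = m.choose j := by
  have h : (Finset.powersetCard j (Finset.univ : Finset (Fin m))).card = m.choose j := by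
    rw [Finset.card_powersetCard, Finset.card_univ, Fintype.card_fin]
  rw [← h]
  apply Finset.card_bij (fun c _ => Finset.univ.filter (fun i : Fin m => c i = false))
  · intro c hc
    simp only [Finset.mem_filter, Finset.mem_univ, true_and] at hc
    rw [Finset.mem_powersetCard]
    exact ⟨Finset.subset_univ _, hc⟩
  · intro c _ c' _ h
    funext i
    have h1 : (i ∈ Finset.univ.filter (fun i : Fin m => c i = false))
        ↔ (i ∈ Finset.univ.filter (fun i : Fin m => c' i = false)) := by rw [h]
    simp only [Finset.mem_filter, Finset.mem_univ, true_and] at h1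
    cases hc : c i <;> cases hc' : c' i <;> simp_all
  · intro s hs
    rw [Finset.mem_powersetCard] at hs
    have hfil : Finset.univ.filter (fun i : Fin m => decide (i ∉ s) = false) = s := by
      ext i; simp
    refine ⟨fun i => decide (i ∉ s), ?_, ?_⟩
    · simp only [Finset.mem_filter, Finset.mem_univ, true_and]
      rw [hfil]; exact hs.2
    · exact hfil

/-- Exact law of `evTop` after `2k+1` Thorp shuffles of `2^(k+1)` cards: it is Binomial(2^k, 1/2). -/
theorem law_evTop (k j : ℕ) :
    ∑ g : Equiv.Perm (Fin (2 * 2 ^ k)),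
      (if evTop (2 ^ k) g = j then (1:ℝ) else 0) * convPow (thorpLaw (2 ^ k)) (2 * k + 1) g
      = ((2 ^ k).choose j : ℝ) / 2 ^ (2 ^ k) := by
  have e : 2 * k + 1 = (k + 1) + k := by ring
  rw [e, convPow_add]
  have e2 : convPow (thorpLaw (2 ^ k)) (k + 1)
      = conv (convPow (thorpLaw (2 ^ k)) k) (thorpLaw (2 ^ k)) := rfl
  rw [e2, sum_mul_conv, Finset.sum_comm]
  have key : ∀ b : Equiv.Perm (Fin (2 * 2 ^ k)),
      ∑ a' : Equiv.Perm (Fin (2 * 2 ^ k)),
        conv (convPow (thorpLaw (2 ^ k)) k) (thorpLaw (2 ^ k)) a' *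
        convPow (thorpLaw (2 ^ k)) k b * (if evTop (2 ^ k) (a' * b) = j then (1:ℝ) else 0)
      = convPow (thorpLaw (2 ^ k)) k b * (((2 ^ k).choose j : ℝ) / 2 ^ (2 ^ k)) := by
    intro b
    by_cases hb : convPow (thorpLaw (2 ^ k)) k b = 0
    · simp [hb]
    · have hB := isThorpProd_of_support (2 ^ k) k b hb
      have h1 : ∑ a' : Equiv.Perm (Fin (2 * 2 ^ k)),
          conv (convPow (thorpLaw (2 ^ k)) k) (thorpLaw (2 ^ k)) a' *
          convPow (thorpLaw (2 ^ k)) k b * (if evTop (2 ^ k) (a' * b) = j then (1:ℝ) else 0)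
          = convPow (thorpLaw (2 ^ k)) k b * ∑ a' : Equiv.Perm (Fin (2 * 2 ^ k)),
              (fun a' => if evTop (2 ^ k) (a' * b) = j then (1:ℝ) else 0) a' *
                conv (convPow (thorpLaw (2 ^ k)) k) (thorpLaw (2 ^ k)) a' := by
        rw [Finset.mul_sum]
        apply Finset.sum_congr rfl
        intro a' _
        ring
      rw [h1, sum_mul_conv]
      congr 1
      have h2 : ∀ a : Equiv.Perm (Fin (2 * 2 ^ k)),
          ∑ s : Equiv.Perm (Fin (2 * 2 ^ k)),
            convPow (thorpLaw (2 ^ k)) k a * thorpLaw (2 ^ k) s *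
              (if evTop (2 ^ k) (a * s * b) = j then (1:ℝ) else 0)
          = convPow (thorpLaw (2 ^ k)) k a * (((2 ^ k).choose j : ℝ) / 2 ^ (2 ^ k)) := by
        intro a
        by_cases ha : convPow (thorpLaw (2 ^ k)) k a = 0
        · simp [ha]
        · have hA := isThorpProd_of_support (2 ^ k) k a ha
          have h3 : ∑ s : Equiv.Perm (Fin (2 * 2 ^ k)),
              convPow (thorpLaw (2 ^ k)) k a * thorpLaw (2 ^ k) s *
                (if evTop (2 ^ k) (a * s * b) = j then (1:ℝ) else 0)
              = convPow (thorpLaw (2 ^ k)) k a * ∑ s : Equiv.Perm (Fin (2 * 2 ^ k)),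
                  thorpLaw (2 ^ k) s *
                    (fun s => if evTop (2 ^ k) (a * s * b) = j then (1:ℝ) else 0) s := by
            rw [Finset.mul_sum]
            apply Finset.sum_congr rfl
            intro s _
            ring
          rw [h3, sum_thorpLaw_mul]
          congr 1
          congr 1
          have h4 : ∀ c : Fin (2 ^ k) → Bool,
              (if evTop (2 ^ k) (a * thorpPerm (2 ^ k) c * b) = j then (1:ℝ) else 0)
              = if (Finset.univ.filter (fun i : Fin (2 ^ k) => c i = false)).card = j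
                  then 1 else 0 := by
            intro c
            rw [evTop_mid k a b hA hB c]
          rw [Finset.sum_congr rfl (fun c _ => h4 c)]
          rw [Finset.sum_ite, Finset.sum_const_zero, add_zero, Finset.sum_const, nsmul_eq_mul,
            mul_one]
          rw [card_coins_false]
      rw [Finset.sum_congr rfl (fun a _ => h2 a), ← Finset.sum_mul,
        sum_convPow (sum_thorpLaw (2 ^ k)), one_mul]
  rw [Finset.sum_congr rfl (fun b _ => key b), ← Finset.sum_mul,
    sum_convPow (sum_thorpLaw (2 ^ k)), one_mul]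

end Vale.Agent.Lib.P162
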