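import Mathlib
import Vale.Agent.Lib.P162.Defs
import Vale.Agent.Lib.P162.Basic
import Vale.Agent.Lib.P162.Structure
import Vale.Agent.Lib.P162.Balance
import Vale.Agent.Lib.P162.Count

namespace Vale.Agent.Lib.P162

open Finset

/-- Distance to uniform after `2k` shuffles of `2^(k+1)` cards. -/
theorem tv_at_2k (k : ℕ) (hk : 1 ≤ k) :
    1 - ((Nat.choose (2 ^ k) (2 ^ (k - 1)) : ℝ)) ^ 2 / (Nat.choose (2 * 2 ^ k) (2 ^ k) : ℝ)
      ≤ tvDist (convPow (thorpLaw (2 ^ k)) (2 * k))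
          (unifLaw (Equiv.Perm (Fin (2 * 2 ^ k)))) := by
  have hsupp : ∀ g : Equiv.Perm (Fin (2 * 2 ^ k)), g ∉ levelSet (2 ^ k) (2 ^ (k - 1)) →
      convPow (thorpLaw (2 ^ k)) (2 * k) g = 0 := by
    intro g hg
    by_contra hne
    apply hg
    have hprod := isThorpProd_of_support (2 ^ k) (2 * k) g hne
    have hbal := thorp_balance k hk g hprod
    simp only [levelSet, Finset.mem_filter, Finset.mem_univ, true_and]
    exact hbal
  have h := tvDist_ge_of_support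
    (sum_convPow (sum_thorpLaw (2 ^ k)) (2 * k)) (levelSet (2 ^ k) (2 ^ (k - 1))) hsupp
  have hcard := levelSet_card (2 ^ k) (2 ^ (k - 1))
  have hG : Fintype.card (Equiv.Perm (Fin (2 * 2 ^ k))) = (2 * 2 ^ k).factorial := by
    rw [Fintype.card_perm, Fintype.card_fin]
  rw [hG] at h
  have hfac : (0 : ℝ) < ((2 * 2 ^ k).factorial : ℝ) := by
    exact_mod_cast Nat.factorial_pos _
  have hch : (0 : ℝ) < (Nat.choose (2 * 2 ^ k) (2 ^ k) : ℝ) := by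
    have : 0 < Nat.choose (2 * 2 ^ k) (2 ^ k) := Nat.choose_pos (by omega)
    exact_mod_cast this
  have hcardR : ((levelSet (2 ^ k) (2 ^ (k - 1))).card : ℝ) * (Nat.choose (2 * 2 ^ k) (2 ^ k) : ℝ)
      = ((Nat.choose (2 ^ k) (2 ^ (k - 1)) : ℝ)) ^ 2 * ((2 * 2 ^ k).factorial : ℝ) := by
    exact_mod_cast hcard
  have heq : ((levelSet (2 ^ k) (2 ^ (k - 1))).card : ℝ) / ((2 * 2 ^ k).factorial : ℝ)
      = ((Nat.choose (2 ^ k) (2 ^ (k - 1)) : ℝ)) ^ 2 / (Nat.choose (2 * 2 ^ k) (2 ^ k) : ℝ) := by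
    rw [div_eq_div_iff (ne_of_gt hfac) (ne_of_gt hch)]
    exact hcardR
  rw [heq] at h
  exact h

theorem tv_le_2k (k : ℕ) (hk : 1 ≤ k) (t : ℕ) (ht : t ≤ 2 * k) :
    1 - ((Nat.choose (2 ^ k) (2 ^ (k - 1)) : ℝ)) ^ 2 / (Nat.choose (2 * 2 ^ k) (2 ^ k) : ℝ)
      ≤ tvDist (convPow (thorpLaw (2 ^ k)) t)
          (unifLaw (Equiv.Perm (Fin (2 * 2 ^ k)))) :=
  le_trans (tv_at_2k k hk)
    (tvDist_convPow_antitone (thorpLaw_nonneg (2 ^ k)) (sum_thorpLaw (2 ^ k)) ht)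

/-- `3 * C(2P,P)^2 ≤ 2 * C(4P,2P)` for `P ≥ 1`. -/
theorem central_sq_bound (P : ℕ) (hP : 1 ≤ P) :
    3 * (Nat.choose (2 * P) P) ^ 2 ≤ 2 * Nat.choose (2 * (2 * P)) (2 * P) := by
  rw [← Nat.sum_range_choose_sq (2 * P)]
  -- the three terms j = P - 1, P, P + 1
  have hsub : ({P - 1, P, P + 1} : Finset ℕ) ⊆ Finset.range (2 * P + 1) := by
    intro j hj
    simp only [Finset.mem_insert, Finset.mem_singleton] at hj
    rw [Finset.mem_range]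
    omega
  have h3 : ∑ j ∈ ({P - 1, P, P + 1} : Finset ℕ), (Nat.choose (2 * P) j) ^ 2
      ≤ ∑ j ∈ Finset.range (2 * P + 1), (Nat.choose (2 * P) j) ^ 2 :=
    Finset.sum_le_sum_of_subset hsub
  have hsum : ∑ j ∈ ({P - 1, P, P + 1} : Finset ℕ), (Nat.choose (2 * P) j) ^ 2
      = (Nat.choose (2 * P) (P - 1)) ^ 2 + (Nat.choose (2 * P) P) ^ 2
        + (Nat.choose (2 * P) (P + 1)) ^ 2 := by
    rw [Finset.sum_insert, Finset.sum_insert, Finset.sum_singleton]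
    · ring
    · simp
    · simp only [Finset.mem_insert, Finset.mem_singleton]
      omega
  have hsymm : Nat.choose (2 * P) (P - 1) = Nat.choose (2 * P) (P + 1) := by
    rw [← Nat.choose_symm (show P + 1 ≤ 2 * P by omega)]
    congr 1
    omega
  have hrec := Nat.choose_succ_right_eq (2 * P) P
  have e : 2 * P - P = P := by omega
  rw [e] at hrec
  -- C(2P,P+1) * (P+1) = C(2P,P) * P, hence 2 * C(2P,P+1) ≥ C(2P,P)
  have hhalf : Nat.choose (2 * P) P ≤ 2 * Nat.choose (2 * P) (P + 1) := by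
    by_contra hlt
    push Not at hlt
    have h1 : 2 * Nat.choose (2 * P) (P + 1) * (P + 1) < Nat.choose (2 * P) P * (P + 1) :=
      Nat.mul_lt_mul_of_pos_right hlt (by omega)
    have h2 : 2 * Nat.choose (2 * P) (P + 1) * (P + 1) = 2 * (Nat.choose (2 * P) P * P) := by
      rw [← hrec]; ring
    have h4 : Nat.choose (2 * P) P * (P + 1) ≤ 2 * (Nat.choose (2 * P) P * P) := by
      have : P + 1 ≤ 2 * P := by omega
      calc Nat.choose (2 * P) P * (P + 1) ≤ Nat.choose (2 * P) P * (2 * P) :=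
            Nat.mul_le_mul_left _ this
        _ = 2 * (Nat.choose (2 * P) P * P) := by ring
    omega
  have hsq : (Nat.choose (2 * P) P) ^ 2 ≤ 4 * (Nat.choose (2 * P) (P + 1)) ^ 2 := by
    calc (Nat.choose (2 * P) P) ^ 2 ≤ (2 * Nat.choose (2 * P) (P + 1)) ^ 2 :=
          Nat.pow_le_pow_left hhalf 2
      _ = 4 * (Nat.choose (2 * P) (P + 1)) ^ 2 := by ring
  rw [hsum, hsymm] at h3
  omega

theorem bound_ge_third (k : ℕ) (hk : 1 ≤ k) :
    (1 / 3 : ℝ) ≤ 1 - ((Nat.choose (2 ^ k) (2 ^ (k - 1)) : ℝ)) ^ 2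
      / (Nat.choose (2 * 2 ^ k) (2 ^ k) : ℝ) := by
  have hP : 2 ^ k = 2 * 2 ^ (k - 1) := by
    conv_lhs => rw [show k = (k - 1) + 1 by omega]
    rw [pow_succ]; ring
  have hPpos : 1 ≤ 2 ^ (k - 1) := Nat.one_le_two_pow
  have hb := central_sq_bound (2 ^ (k - 1)) hPpos
  rw [← hP] at hb
  have hch : (0 : ℝ) < (Nat.choose (2 * 2 ^ k) (2 ^ k) : ℝ) := by
    have : 0 < Nat.choose (2 * 2 ^ k) (2 ^ k) := Nat.choose_pos (by omega)
    exact_mod_cast this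
  have hbR : 3 * ((Nat.choose (2 ^ k) (2 ^ (k - 1)) : ℝ)) ^ 2
      ≤ 2 * (Nat.choose (2 * 2 ^ k) (2 ^ k) : ℝ) := by
    exact_mod_cast hb
  have : ((Nat.choose (2 ^ k) (2 ^ (k - 1)) : ℝ)) ^ 2 / (Nat.choose (2 * 2 ^ k) (2 ^ k) : ℝ)
      ≤ 2 / 3 := by
    rw [div_le_iff₀ hch]
    linarith
  linarith

/-- Main theorem in terms of `d` (`n = 2^d = 2 * 2^(d-1)` cards). -/
theorem thorp_main (d : ℕ) (hd : 2 ≤ d) :
    (∀ t : ℕ, t ≤ 2 * d - 2 →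
      1 - ((Nat.choose (2 ^ (d - 1)) (2 ^ (d - 2)) : ℝ)) ^ 2
            / (Nat.choose (2 * 2 ^ (d - 1)) (2 ^ (d - 1)) : ℝ)
        ≤ tvDist (convPow (thorpLaw (2 ^ (d - 1))) t)
            (unifLaw (Equiv.Perm (Fin (2 * 2 ^ (d - 1))))))
    ∧ (1 / 3 : ℝ) ≤ 1 - ((Nat.choose (2 ^ (d - 1)) (2 ^ (d - 2)) : ℝ)) ^ 2
            / (Nat.choose (2 * 2 ^ (d - 1)) (2 ^ (d - 1)) : ℝ)
    ∧ (∀ t : ℕ, tvDist (convPow (thorpLaw (2 ^ (d - 1))) t)
            (unifLaw (Equiv.Perm (Fin (2 * 2 ^ (d - 1))))) ≤ 1 / 4 → 2 * d - 1 ≤ t) := by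
  have hk : 1 ≤ d - 1 := by omega
  have e : d - 1 - 1 = d - 2 := by omega
  have h1 : ∀ t : ℕ, t ≤ 2 * d - 2 →
      1 - ((Nat.choose (2 ^ (d - 1)) (2 ^ (d - 2)) : ℝ)) ^ 2
            / (Nat.choose (2 * 2 ^ (d - 1)) (2 ^ (d - 1)) : ℝ)
        ≤ tvDist (convPow (thorpLaw (2 ^ (d - 1))) t)
            (unifLaw (Equiv.Perm (Fin (2 * 2 ^ (d - 1))))) := by
    intro t ht
    have := tv_le_2k (d - 1) hk t (by omega)
    rw [e] at this
    exact this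
  have h2 : (1 / 3 : ℝ) ≤ 1 - ((Nat.choose (2 ^ (d - 1)) (2 ^ (d - 2)) : ℝ)) ^ 2
            / (Nat.choose (2 * 2 ^ (d - 1)) (2 ^ (d - 1)) : ℝ) := by
    have := bound_ge_third (d - 1) hk
    rw [e] at this
    exact this
  refine ⟨h1, h2, ?_⟩
  intro t ht
  by_contra hlt
  have hle : t ≤ 2 * d - 2 := by omega
  have := h1 t hle
  linarith

end Vale.Agent.Lib.P162
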