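import Mathlib
import Vale.Agent.Lib.P162.Defs

namespace Vale.Agent.Lib.P162

open Finset

/-- Pascal's rule inside a sum. -/
theorem pascal_sum (m : ℕ) (G : ℕ → ℝ) :
    ∑ j ∈ Finset.range (m + 1 + 1), ((m + 1).choose j : ℝ) * G j
      = ∑ j ∈ Finset.range (m + 1), (m.choose j : ℝ) * (G j + G (j + 1)) := by
  rw [Finset.sum_range_succ']
  simp only [Nat.choose_succ_succ, Nat.cast_add, Nat.choose_zero_right, Nat.cast_one, one_mul]
  have h1 := Finset.sum_range_succ' (fun j => (m.choose j : ℝ) * G j) (m + 1)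
  have h2 := Finset.sum_range_succ (fun j => (m.choose j : ℝ) * G j) (m + 1)
  simp only [Nat.choose_succ_self, Nat.cast_zero, zero_mul, add_zero, Nat.choose_zero_right,
    Nat.cast_one, one_mul] at h1 h2
  have h3 : ∑ j ∈ Finset.range (m + 1), ((m.choose j : ℝ) + (m.choose (j + 1) : ℝ)) * G (j + 1)
      = ∑ j ∈ Finset.range (m + 1), (m.choose j : ℝ) * G (j + 1)
        + ∑ j ∈ Finset.range (m + 1), (m.choose (j + 1) : ℝ) * G (j + 1) := by
    rw [← Finset.sum_add_distrib]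
    apply Finset.sum_congr rfl
    intro j _
    ring
  have h4 : ∑ j ∈ Finset.range (m + 1), (m.choose j : ℝ) * (G j + G (j + 1))
      = ∑ j ∈ Finset.range (m + 1), (m.choose j : ℝ) * G j
        + ∑ j ∈ Finset.range (m + 1), (m.choose j : ℝ) * G (j + 1) := by
    rw [← Finset.sum_add_distrib]
    apply Finset.sum_congr rfl
    intro j _
    ring
  rw [h3, h4]
  linarith

theorem sum_choose_real (m : ℕ) :
    ∑ j ∈ Finset.range (m + 1), (m.choose j : ℝ) = 2 ^ m := by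
  have h := Nat.sum_range_choose m
  exact_mod_cast h

/-- Second central moment of the binomial coefficients. -/
theorem binom_second (m : ℕ) :
    ∑ j ∈ Finset.range (m + 1), (m.choose j : ℝ) * (2 * (j:ℝ) - m) ^ 2 = (m:ℝ) * 2 ^ m := by
  induction m with
  | zero => simp
  | succ m ih =>
    rw [pascal_sum m (fun j => (2 * (j:ℝ) - ((m + 1 : ℕ) : ℝ)) ^ 2)]
    have h : ∀ j ∈ Finset.range (m + 1),
        (m.choose j : ℝ) * ((2 * (j:ℝ) - ((m + 1 : ℕ) : ℝ)) ^ 2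
          + (2 * ((j + 1 : ℕ) : ℝ) - ((m + 1 : ℕ) : ℝ)) ^ 2)
        = 2 * ((m.choose j : ℝ) * (2 * (j:ℝ) - m) ^ 2) + 2 * (m.choose j : ℝ) := by
      intro j _
      push_cast
      ring
    rw [Finset.sum_congr rfl h, Finset.sum_add_distrib, ← Finset.mul_sum, ← Finset.mul_sum, ih,
      sum_choose_real]
    push_cast
    ring

/-- Fourth central moment of the binomial coefficients. -/
theorem binom_fourth (m : ℕ) :
    ∑ j ∈ Finset.range (m + 1), (m.choose j : ℝ) * (2 * (j:ℝ) - m) ^ 4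
      = (3 * (m:ℝ) ^ 2 - 2 * m) * 2 ^ m := by
  induction m with
  | zero => simp
  | succ m ih =>
    rw [pascal_sum m (fun j => (2 * (j:ℝ) - ((m + 1 : ℕ) : ℝ)) ^ 4)]
    have h : ∀ j ∈ Finset.range (m + 1),
        (m.choose j : ℝ) * ((2 * (j:ℝ) - ((m + 1 : ℕ) : ℝ)) ^ 4
          + (2 * ((j + 1 : ℕ) : ℝ) - ((m + 1 : ℕ) : ℝ)) ^ 4)
        = 2 * ((m.choose j : ℝ) * (2 * (j:ℝ) - m) ^ 4)
          + 12 * ((m.choose j : ℝ) * (2 * (j:ℝ) - m) ^ 2) + 2 * (m.choose j : ℝ) := by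
      intro j _
      push_cast
      ring
    rw [Finset.sum_congr rfl h, Finset.sum_add_distrib, Finset.sum_add_distrib,
      ← Finset.mul_sum, ← Finset.mul_sum, ← Finset.mul_sum, ih, binom_second, sum_choose_real]
    push_cast
    ring

/-- Second central moment of the squared binomial coefficients (hypergeometric law). -/
theorem hyper_second (m : ℕ) (hm : 1 ≤ m) :
    (∑ j ∈ Finset.range (m + 1), ((m.choose j : ℝ)) ^ 2 * (2 * (j:ℝ) - m) ^ 2) * (2 * (m:ℝ) - 1)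
      = ((2 * m).choose m : ℝ) * (m:ℝ) ^ 2 := by
  have hrec : ∀ j ∈ Finset.range (m + 1),
      ((m.choose j : ℝ)) ^ 2 * ((m:ℝ) - j) ^ 2
        = ((m.choose (j + 1) : ℝ)) ^ 2 * ((j:ℝ) + 1) ^ 2 := by
    intro j hj
    rw [Finset.mem_range] at hj
    have h := Nat.choose_succ_right_eq m j
    have h' : ((m.choose (j + 1) : ℝ)) * ((j:ℝ) + 1) = (m.choose j : ℝ) * ((m:ℝ) - j) := by
      have h2 := congrArg (fun n : ℕ => (n : ℝ)) h
      simp only [Nat.cast_mul, Nat.cast_add, Nat.cast_one] at h2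
      rw [h2, Nat.cast_sub (by omega)]
    calc ((m.choose j : ℝ)) ^ 2 * ((m:ℝ) - j) ^ 2 = ((m.choose j : ℝ) * ((m:ℝ) - j)) ^ 2 := by
          ring
      _ = ((m.choose (j + 1) : ℝ) * ((j:ℝ) + 1)) ^ 2 := by rw [h']
      _ = _ := by ring
  have htop : ((m.choose (m + 1) : ℝ)) = 0 := by
    rw [Nat.choose_succ_self]; simp
  -- the four power sums
  have hA0 : ∑ j ∈ Finset.range (m + 1), ((m.choose j : ℝ)) ^ 2 = ((2 * m).choose m : ℝ) := by
    have h := Nat.sum_range_choose_sq m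
    exact_mod_cast h
  set A0 := ∑ j ∈ Finset.range (m + 1), ((m.choose j : ℝ)) ^ 2 with hA0def
  set A1 := ∑ j ∈ Finset.range (m + 1), ((m.choose j : ℝ)) ^ 2 * (j:ℝ) with hA1def
  set A2 := ∑ j ∈ Finset.range (m + 1), ((m.choose j : ℝ)) ^ 2 * (j:ℝ) ^ 2 with hA2def
  set A3 := ∑ j ∈ Finset.range (m + 1), ((m.choose j : ℝ)) ^ 2 * (j:ℝ) ^ 3 with hA3def
  -- g = 1
  have e1 : ∑ j ∈ Finset.range (m + 1), ((m.choose j : ℝ)) ^ 2 * ((m:ℝ) - j) ^ 2 = A2 := by
    rw [Finset.sum_congr rfl hrec]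
    have h1 := Finset.sum_range_succ' (fun j => ((m.choose j : ℝ)) ^ 2 * (j:ℝ) ^ 2) (m + 1)
    have h2 := Finset.sum_range_succ (fun j => ((m.choose j : ℝ)) ^ 2 * (j:ℝ) ^ 2) (m + 1)
    simp only [Nat.cast_add, Nat.cast_one, Nat.cast_zero] at h1 h2
    rw [htop] at h2
    rw [hA2def]
    linarith
  have x1 : ∑ j ∈ Finset.range (m + 1), ((m.choose j : ℝ)) ^ 2 * ((m:ℝ) - j) ^ 2
      = (m:ℝ) ^ 2 * A0 - 2 * m * A1 + A2 := by
    rw [hA0def, hA1def, hA2def, Finset.mul_sum, Finset.mul_sum, ← Finset.sum_sub_distrib,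
      ← Finset.sum_add_distrib]
    apply Finset.sum_congr rfl
    intro j _
    ring
  -- g(j) = j
  have e2 : ∑ j ∈ Finset.range (m + 1), ((m.choose j : ℝ)) ^ 2 * ((m:ℝ) - j) ^ 2 * (j:ℝ)
      = A3 - A2 := by
    have hrec' : ∀ j ∈ Finset.range (m + 1),
        ((m.choose j : ℝ)) ^ 2 * ((m:ℝ) - j) ^ 2 * (j:ℝ)
          = ((m.choose (j + 1) : ℝ)) ^ 2 * ((j:ℝ) + 1) ^ 2 * (j:ℝ) := by
      intro j hj
      rw [hrec j hj]
    rw [Finset.sum_congr rfl hrec']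
    have h1 := Finset.sum_range_succ'
      (fun j => ((m.choose j : ℝ)) ^ 2 * (j:ℝ) ^ 2 * ((j:ℝ) - 1)) (m + 1)
    have h2 := Finset.sum_range_succ
      (fun j => ((m.choose j : ℝ)) ^ 2 * (j:ℝ) ^ 2 * ((j:ℝ) - 1)) (m + 1)
    simp only [Nat.cast_add, Nat.cast_one, Nat.cast_zero] at h1 h2
    rw [htop] at h2
    have h3 : ∑ j ∈ Finset.range (m + 1), ((m.choose j : ℝ)) ^ 2 * (j:ℝ) ^ 2 * ((j:ℝ) - 1)
        = A3 - A2 := by
      rw [hA3def, hA2def, ← Finset.sum_sub_distrib]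
      apply Finset.sum_congr rfl
      intro j _
      ring
    have h4 : ∑ j ∈ Finset.range (m + 1),
        ((m.choose (j + 1) : ℝ)) ^ 2 * ((j:ℝ) + 1) ^ 2 * ((j:ℝ) + 1 - 1)
        = ∑ j ∈ Finset.range (m + 1), ((m.choose (j + 1) : ℝ)) ^ 2 * ((j:ℝ) + 1) ^ 2 * (j:ℝ) := by
      apply Finset.sum_congr rfl
      intro j _
      ring
    rw [h4] at h1
    linarith
  have x2 : ∑ j ∈ Finset.range (m + 1), ((m.choose j : ℝ)) ^ 2 * ((m:ℝ) - j) ^ 2 * (j:ℝ)
      = (m:ℝ) ^ 2 * A1 - 2 * m * A2 + A3 := by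
    rw [hA1def, hA2def, hA3def, Finset.mul_sum, Finset.mul_sum, ← Finset.sum_sub_distrib,
      ← Finset.sum_add_distrib]
    apply Finset.sum_congr rfl
    intro j _
    ring
  have x3 : ∑ j ∈ Finset.range (m + 1), ((m.choose j : ℝ)) ^ 2 * (2 * (j:ℝ) - m) ^ 2
      = 4 * A2 - 4 * m * A1 + (m:ℝ) ^ 2 * A0 := by
    rw [hA0def, hA1def, hA2def, Finset.mul_sum, Finset.mul_sum, Finset.mul_sum,
      ← Finset.sum_sub_distrib, ← Finset.sum_add_distrib]
    apply Finset.sum_congr rfl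
    intro j _
    ring
  have hmpos : (0 : ℝ) < m := by exact_mod_cast hm
  -- m * A0 = 2 * A1
  have r1 : (m:ℝ) * A0 = 2 * A1 := by
    have h : (m:ℝ) * ((m:ℝ) * A0 - 2 * A1) = 0 := by
      have := x1.symm.trans e1
      linarith
    rcases mul_eq_zero.mp h with h0 | h0
    · exact absurd h0 (ne_of_gt hmpos)
    · linarith
  -- m^2 * A1 = (2m-1) * A2
  have r2 : (m:ℝ) ^ 2 * A1 = (2 * (m:ℝ) - 1) * A2 := by
    have := x2.symm.trans e2
    linarith
  rw [x3, ← hA0]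
  linear_combination (-4) * r2 + (2 * (m:ℝ) * ((m:ℝ) - 1)) * r1

end Vale.Agent.Lib.P162
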