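import Mathlib
import Vale.Agent.Lib.P162.Defs
import Vale.Agent.Lib.P162.Basic
import Vale.Agent.Lib.P162.Structure
import Vale.Agent.Lib.P162.Count
import Vale.Agent.Lib.P162.ConvAlg
import Vale.Agent.Lib.P162.Law
import Vale.Agent.Lib.P162.Moments
import Vale.Agent.Lib.P162.Main

namespace Vale.Agent.Lib.P162

open Finset

/-- A second-moment lower bound for the total variation distance. -/
theorem tv_moment_bound {G : Type*} [Fintype G] (μ ν : G → ℝ) (hμ : ∀ g, 0 ≤ μ g)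
    (hν : ∀ g, 0 ≤ ν g) (hsum : ∑ g, μ g = ∑ g, ν g) (f : G → ℝ) (hf : ∀ g, 0 ≤ f g)
    (hD : 0 ≤ ∑ g, μ g * f g - ∑ g, ν g * f g) :
    (∑ g, μ g * f g - ∑ g, ν g * f g) ^ 2 ≤ tvDist μ ν * ∑ g, μ g * (f g) ^ 2 := by
  set w : G → ℝ := fun g => max (μ g - ν g) 0 with hw
  have hw0 : ∀ g, 0 ≤ w g := fun g => le_max_right _ _
  have hwμ : ∀ g, w g ≤ μ g := by
    intro g
    simp only [hw]
    exact max_le (by linarith [hν g]) (hμ g)
  have hwd : ∀ g, μ g - ν g ≤ w g := fun g => le_max_left _ _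
  have habs : ∀ g, |μ g - ν g| = 2 * w g - (μ g - ν g) := by
    intro g
    simp only [hw]
    rcases le_total (μ g - ν g) 0 with h | h
    · rw [abs_of_nonpos h, max_eq_right h]; ring
    · rw [abs_of_nonneg h, max_eq_left h]; ring
  have htv : tvDist μ ν = ∑ g, w g := by
    unfold tvDist
    rw [Finset.sum_congr rfl (fun g _ => habs g), Finset.sum_sub_distrib, ← Finset.mul_sum,
      Finset.sum_sub_distrib, hsum]
    ring
  have h1 : ∑ g, μ g * f g - ∑ g, ν g * f g ≤ ∑ g, w g * f g := by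
    rw [← Finset.sum_sub_distrib]
    apply Finset.sum_le_sum
    intro g _
    have := mul_le_mul_of_nonneg_right (hwd g) (hf g)
    linarith
  have h2 : (∑ g, w g * f g) ^ 2 ≤ (∑ g, w g) * ∑ g, w g * (f g) ^ 2 := by
    apply Finset.sum_sq_le_sum_mul_sum_of_sq_le_mul
    · intro g _; exact hw0 g
    · intro g _; exact mul_nonneg (hw0 g) (sq_nonneg _)
    · intro g _; exact le_of_eq (by ring)
  have h3 : ∑ g, w g * (f g) ^ 2 ≤ ∑ g, μ g * (f g) ^ 2 := by
    apply Finset.sum_le_sum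
    intro g _
    exact mul_le_mul_of_nonneg_right (hwμ g) (sq_nonneg _)
  have h4 : 0 ≤ ∑ g, w g := Finset.sum_nonneg (fun g _ => hw0 g)
  calc (∑ g, μ g * f g - ∑ g, ν g * f g) ^ 2 ≤ (∑ g, w g * f g) ^ 2 :=
        pow_le_pow_left₀ hD h1 2
    _ ≤ (∑ g, w g) * ∑ g, w g * (f g) ^ 2 := h2
    _ ≤ (∑ g, w g) * ∑ g, μ g * (f g) ^ 2 := mul_le_mul_of_nonneg_left h3 h4
    _ = _ := by rw [htv]

/-- Group a sum over permutations by the value of `evTop`. -/
theorem sum_by_evTop (m : ℕ) (φ : Equiv.Perm (Fin (2 * m)) → ℝ) (h : ℕ → ℝ) :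
    ∑ g, φ g * h (evTop m g)
      = ∑ j ∈ Finset.range (m + 1),
          h j * ∑ g, (if evTop m g = j then (1:ℝ) else 0) * φ g := by
  simp only [Finset.mul_sum]
  rw [Finset.sum_comm]
  apply Finset.sum_congr rfl
  intro g _
  have hle := evTop_le m g
  have hterm : ∀ j ∈ Finset.range (m + 1),
      h j * ((if evTop m g = j then (1:ℝ) else 0) * φ g)
      = if j = evTop m g then φ g * h (evTop m g) else 0 := by
    intro j _
    by_cases hj : evTop m g = j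
    · subst hj
      simp only [if_true]
      ring
    · have hj' : ¬ j = evTop m g := fun h' => hj h'.symm
      simp only [hj, hj', if_false]
      ring
  rw [Finset.sum_congr rfl hterm, Finset.sum_ite_eq' ]
  rw [if_pos (Finset.mem_range.mpr (by omega))]

/-- Under the law after `2k+1` shuffles, `evTop` is Binomial: expectation of `h (evTop)`. -/
theorem expect_thorp (k : ℕ) (h : ℕ → ℝ) :
    ∑ g, convPow (thorpLaw (2 ^ k)) (2 * k + 1) g * h (evTop (2 ^ k) g)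
      = (∑ j ∈ Finset.range (2 ^ k + 1), ((2 ^ k).choose j : ℝ) * h j) / 2 ^ (2 ^ k) := by
  rw [sum_by_evTop, Finset.sum_div]
  apply Finset.sum_congr rfl
  intro j _
  rw [law_evTop]
  ring

/-- Under the uniform law, `evTop` is hypergeometric: expectation of `h (evTop)`. -/
theorem expect_unif (m : ℕ) (h : ℕ → ℝ) :
    ∑ g, unifLaw (Equiv.Perm (Fin (2 * m))) g * h (evTop m g)
      = (∑ j ∈ Finset.range (m + 1), ((m.choose j : ℝ)) ^ 2 * h j) / ((2 * m).choose m : ℝ) := by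
  rw [sum_by_evTop, Finset.sum_div]
  apply Finset.sum_congr rfl
  intro j _
  have hG : Fintype.card (Equiv.Perm (Fin (2 * m))) = (2 * m).factorial := by
    rw [Fintype.card_perm, Fintype.card_fin]
  have hfac : (0 : ℝ) < ((2 * m).factorial : ℝ) := by exact_mod_cast Nat.factorial_pos _
  have hch : (0 : ℝ) < ((2 * m).choose m : ℝ) := by
    have : 0 < (2 * m).choose m := Nat.choose_pos (by omega)
    exact_mod_cast this
  have hcard : ((levelSet m j).card : ℝ) * ((2 * m).choose m : ℝ)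
      = ((m.choose j : ℝ)) ^ 2 * ((2 * m).factorial : ℝ) := by
    exact_mod_cast levelSet_card m j
  have hsum : ∑ g : Equiv.Perm (Fin (2 * m)),
      (if evTop m g = j then (1:ℝ) else 0) * unifLaw (Equiv.Perm (Fin (2 * m))) g
      = ((levelSet m j).card : ℝ) / ((2 * m).factorial : ℝ) := by
    unfold unifLaw
    rw [← Finset.sum_mul, hG, Finset.sum_boole]
    unfold levelSet
    ring
  rw [hsum]
  have heq : ((levelSet m j).card : ℝ) / ((2 * m).factorial : ℝ)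
      = ((m.choose j : ℝ)) ^ 2 / ((2 * m).choose m : ℝ) := by
    rw [div_eq_div_iff (ne_of_gt hfac) (ne_of_gt hch)]
    exact hcard
  rw [heq]
  ring

theorem sum_unifLaw (G : Type*) [Fintype G] [Nonempty G] : ∑ g : G, unifLaw G g = 1 := by
  unfold unifLaw
  rw [Finset.sum_const, Finset.card_univ, nsmul_eq_mul]
  have : (0 : ℝ) < (Fintype.card G : ℝ) := by exact_mod_cast Fintype.card_pos
  field_simp

/-- Distance to uniform after `2k+1` shuffles of `2^(k+1)` cards. -/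
theorem tv_at_2k1 (k : ℕ) (hk : 1 ≤ k) :
    (((2 ^ k : ℕ) : ℝ)) * (((2 ^ k : ℕ) : ℝ) - 1) ^ 2
        / ((2 * ((2 ^ k : ℕ) : ℝ) - 1) ^ 2 * (3 * ((2 ^ k : ℕ) : ℝ) - 2))
      ≤ tvDist (convPow (thorpLaw (2 ^ k)) (2 * k + 1))
          (unifLaw (Equiv.Perm (Fin (2 * 2 ^ k)))) := by
  have hm2 : 2 ≤ 2 ^ k := by
    calc 2 = 2 ^ 1 := by norm_num
      _ ≤ 2 ^ k := Nat.pow_le_pow_right (by norm_num) hk
  have hM2 : (2 : ℝ) ≤ ((2 ^ k : ℕ) : ℝ) := by exact_mod_cast hm2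
  have hpow : (0 : ℝ) < 2 ^ (2 ^ k) := by positivity
  have hch : (0 : ℝ) < ((2 * 2 ^ k).choose (2 ^ k) : ℝ) := by
    have : 0 < (2 * 2 ^ k).choose (2 ^ k) := Nat.choose_pos (by omega)
    exact_mod_cast this
  -- expectations
  have Eq1 : ∑ g, convPow (thorpLaw (2 ^ k)) (2 * k + 1) g
      * (fun g => (2 * (evTop (2 ^ k) g : ℝ) - ((2 ^ k : ℕ) : ℝ)) ^ 2) g
      = ((2 ^ k : ℕ) : ℝ) := by
    have h := expect_thorp k (fun j => (2 * (j : ℝ) - ((2 ^ k : ℕ) : ℝ)) ^ 2)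
    simp only at h ⊢
    rw [h, binom_second]
    field_simp
  have Eq2 : ∑ g, convPow (thorpLaw (2 ^ k)) (2 * k + 1) g
      * ((fun g => (2 * (evTop (2 ^ k) g : ℝ) - ((2 ^ k : ℕ) : ℝ)) ^ 2) g) ^ 2
      = 3 * (((2 ^ k : ℕ) : ℝ)) ^ 2 - 2 * ((2 ^ k : ℕ) : ℝ) := by
    have h := expect_thorp k (fun j => (2 * (j : ℝ) - ((2 ^ k : ℕ) : ℝ)) ^ 4)
    have h' : ∀ g : Equiv.Perm (Fin (2 * 2 ^ k)),
        convPow (thorpLaw (2 ^ k)) (2 * k + 1) g
          * ((fun g => (2 * (evTop (2 ^ k) g : ℝ) - ((2 ^ k : ℕ) : ℝ)) ^ 2) g) ^ 2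
        = convPow (thorpLaw (2 ^ k)) (2 * k + 1) g
          * (fun j : ℕ => (2 * (j : ℝ) - ((2 ^ k : ℕ) : ℝ)) ^ 4) (evTop (2 ^ k) g) := by
      intro g
      simp only
      ring
    rw [Finset.sum_congr rfl (fun g _ => h' g), h, binom_fourth]
    field_simp
  have EU : (∑ g, unifLaw (Equiv.Perm (Fin (2 * 2 ^ k))) g
      * (fun g => (2 * (evTop (2 ^ k) g : ℝ) - ((2 ^ k : ℕ) : ℝ)) ^ 2) g)
      * (2 * ((2 ^ k : ℕ) : ℝ) - 1) = (((2 ^ k : ℕ) : ℝ)) ^ 2 := by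
    have h := expect_unif (2 ^ k) (fun j => (2 * (j : ℝ) - ((2 ^ k : ℕ) : ℝ)) ^ 2)
    simp only at h ⊢
    rw [h]
    have h2 := hyper_second (2 ^ k) (by omega)
    rw [div_mul_eq_mul_div, h2]
    field_simp
  -- apply the moment bound
  have hμ : ∀ g, 0 ≤ convPow (thorpLaw (2 ^ k)) (2 * k + 1) g :=
    convPow_nonneg (thorpLaw_nonneg (2 ^ k)) (2 * k + 1)
  have hν : ∀ g, 0 ≤ unifLaw (Equiv.Perm (Fin (2 * 2 ^ k))) g := by
    intro g
    unfold unifLaw
    positivity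
  have hsum : ∑ g, convPow (thorpLaw (2 ^ k)) (2 * k + 1) g
      = ∑ g, unifLaw (Equiv.Perm (Fin (2 * 2 ^ k))) g := by
    rw [sum_convPow (sum_thorpLaw (2 ^ k)), sum_unifLaw]
  generalize hMdef : ((2 ^ k : ℕ) : ℝ) = M at *
  generalize hEdef : (∑ g, unifLaw (Equiv.Perm (Fin (2 * 2 ^ k))) g
      * (fun g => (2 * (evTop (2 ^ k) g : ℝ) - M) ^ 2) g) = E at *
  have hD : 0 ≤ M - E := by
    have : (M - E) * (2 * M - 1) = M * (M - 1) := by
      have := EU
      nlinarith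
    have h1 : 0 ≤ M * (M - 1) := by nlinarith
    by_contra hneg
    push Not at hneg
    have : (M - E) * (2 * M - 1) < 0 := mul_neg_of_neg_of_pos hneg (by linarith)
    linarith
  have key := tv_moment_bound (convPow (thorpLaw (2 ^ k)) (2 * k + 1))
    (unifLaw (Equiv.Perm (Fin (2 * 2 ^ k)))) hμ hν hsum
    (fun g => (2 * (evTop (2 ^ k) g : ℝ) - M) ^ 2) (fun g => sq_nonneg _)
    (by rw [Eq1, hEdef]; exact hD)
  rw [Eq1, hEdef, Eq2] at key
  set T := tvDist (convPow (thorpLaw (2 ^ k)) (2 * k + 1))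
    (unifLaw (Equiv.Perm (Fin (2 * 2 ^ k)))) with hT
  have hden : 0 < (2 * M - 1) ^ 2 * (3 * M - 2) := by
    have h1 : 0 < 2 * M - 1 := by linarith
    have h2 : 0 < 3 * M - 2 := by linarith
    positivity
  rw [div_le_iff₀ hden]
  have hDeq : (M - E) * (2 * M - 1) = M * (M - 1) := by
    have := EU
    nlinarith
  have h5 : M * (M * (M - 1) ^ 2) ≤ M * (T * ((2 * M - 1) ^ 2 * (3 * M - 2))) := by
    have h6 : (M * (M - 1)) ^ 2 ≤ T * (3 * M ^ 2 - 2 * M) * (2 * M - 1) ^ 2 := by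
      rw [← hDeq]
      have h7 : 0 ≤ (2 * M - 1) ^ 2 := sq_nonneg _
      calc ((M - E) * (2 * M - 1)) ^ 2 = (M - E) ^ 2 * (2 * M - 1) ^ 2 := by ring
        _ ≤ (T * (3 * M ^ 2 - 2 * M)) * (2 * M - 1) ^ 2 := mul_le_mul_of_nonneg_right key h7
    nlinarith
  exact le_of_mul_le_mul_left h5 (by linarith)

end Vale.Agent.Lib.P162
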