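import Mathlib
import Vale.Agent.Lib.P162.Defs
import Vale.Agent.Lib.P162.Basic
import Vale.Agent.Lib.P162.Main
import Vale.Agent.Lib.P162.Main2

namespace Vale.Agent.Lib.P162

open Finset

/-- `C(2n,n)^2 * (3n+1) ≤ 16^n`. -/
theorem cb_upper (n : ℕ) : (Nat.centralBinom n) ^ 2 * (3 * n + 1) ≤ 16 ^ n := by
  induction n with
  | zero => simp
  | succ n ih =>
    have h := Nat.succ_mul_centralBinom_succ n
    have hpos : 0 < (n + 1) ^ 2 := by positivity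
    apply Nat.le_of_mul_le_mul_left _ hpos
    have hpoly : 4 * (2 * n + 1) ^ 2 * (3 * n + 4) ≤ 16 * (n + 1) ^ 2 * (3 * n + 1) := by
      have : 4 * (2 * n + 1) ^ 2 * (3 * n + 4) + 4 * n = 16 * (n + 1) ^ 2 * (3 * n + 1) := by ring
      exact Nat.le.intro this
    calc (n + 1) ^ 2 * ((n + 1).centralBinom ^ 2 * (3 * (n + 1) + 1))
        = ((n + 1) * (n + 1).centralBinom) ^ 2 * (3 * n + 4) := by ring
      _ = (2 * (2 * n + 1) * n.centralBinom) ^ 2 * (3 * n + 4) := by rw [h]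
      _ = n.centralBinom ^ 2 * (4 * (2 * n + 1) ^ 2 * (3 * n + 4)) := by ring
      _ ≤ n.centralBinom ^ 2 * (16 * (n + 1) ^ 2 * (3 * n + 1)) := Nat.mul_le_mul_left _ hpoly
      _ = (n + 1) ^ 2 * (16 * (n.centralBinom ^ 2 * (3 * n + 1))) := by ring
      _ ≤ (n + 1) ^ 2 * (16 * 16 ^ n) :=
          Nat.mul_le_mul_left _ (Nat.mul_le_mul_left _ ih)
      _ = (n + 1) ^ 2 * 16 ^ (n + 1) := by ring

/-- `16^n ≤ 4n * C(2n,n)^2` for `n ≥ 1`. -/
theorem cb_lower (n : ℕ) (hn : 1 ≤ n) : 16 ^ n ≤ 4 * n * (Nat.centralBinom n) ^ 2 := by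
  induction n with
  | zero => omega
  | succ n ih =>
    rcases Nat.eq_zero_or_pos n with h0 | hpos
    · subst h0
      simp [Nat.centralBinom]
    · have ih' := ih hpos
      have h := Nat.succ_mul_centralBinom_succ n
      have hp : 0 < n + 1 := by omega
      apply Nat.le_of_mul_le_mul_left _ hp
      have hpoly : 4 * n * (n + 1) ≤ (2 * n + 1) ^ 2 := by
        have : 4 * n * (n + 1) + 1 = (2 * n + 1) ^ 2 := by ring
        exact Nat.le.intro this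
      calc (n + 1) * 16 ^ (n + 1) = 16 * (n + 1) * 16 ^ n := by ring
        _ ≤ 16 * (n + 1) * (4 * n * n.centralBinom ^ 2) := Nat.mul_le_mul_left _ ih'
        _ = 16 * (4 * n * (n + 1)) * n.centralBinom ^ 2 := by ring
        _ ≤ 16 * ((2 * n + 1) ^ 2) * n.centralBinom ^ 2 :=
            Nat.mul_le_mul_right _ (Nat.mul_le_mul_left _ hpoly)
        _ = 4 * (2 * (2 * n + 1) * n.centralBinom) ^ 2 := by ring
        _ = 4 * ((n + 1) * (n + 1).centralBinom) ^ 2 := by rw [h]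
        _ = (n + 1) * (4 * (n + 1) * (n + 1).centralBinom ^ 2) := by ring

/-- `P * C(2P,P)^4 ≤ C(4P,2P)^2` for `P ≥ 1`. -/
theorem cb_ratio (P : ℕ) (hP : 1 ≤ P) :
    P * (Nat.centralBinom P) ^ 4 ≤ (Nat.centralBinom (2 * P)) ^ 2 := by
  have ha := cb_upper P
  have hb := cb_lower (2 * P) (by omega)
  have hpos : 0 < (3 * P + 1) ^ 2 := by positivity
  apply Nat.le_of_mul_le_mul_left _ hpos
  have hpoly : 8 * P ^ 2 ≤ (3 * P + 1) ^ 2 := by
    have : 8 * P ^ 2 + (P ^ 2 + 6 * P + 1) = (3 * P + 1) ^ 2 := by ring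
    exact Nat.le.intro this
  calc (3 * P + 1) ^ 2 * (P * P.centralBinom ^ 4)
      = P * (P.centralBinom ^ 2 * (3 * P + 1)) ^ 2 := by ring
    _ ≤ P * (16 ^ P) ^ 2 := Nat.mul_le_mul_left _ (Nat.pow_le_pow_left ha 2)
    _ = P * 16 ^ (2 * P) := by rw [← pow_mul, mul_comm P 2]
    _ ≤ P * (4 * (2 * P) * (2 * P).centralBinom ^ 2) := Nat.mul_le_mul_left _ hb
    _ = 8 * P ^ 2 * (2 * P).centralBinom ^ 2 := by ring
    _ ≤ (3 * P + 1) ^ 2 * (2 * P).centralBinom ^ 2 := Nat.mul_le_mul_right _ hpoly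

/-- The uniform probability of the balanced level set is at most `2 / sqrt n`, `n = 2^(k+1)`. -/
theorem bound_sqrt (k : ℕ) (hk : 1 ≤ k) :
    ((Nat.choose (2 ^ k) (2 ^ (k - 1)) : ℝ)) ^ 2 / (Nat.choose (2 * 2 ^ k) (2 ^ k) : ℝ)
      ≤ 2 / Real.sqrt ((2:ℝ) ^ (k + 1)) := by
  have hP : 2 ^ k = 2 * 2 ^ (k - 1) := by
    conv_lhs => rw [show k = (k - 1) + 1 by omega]
    rw [pow_succ]; ring
  have hPpos : 1 ≤ 2 ^ (k - 1) := Nat.one_le_two_pow
  have hr := cb_ratio (2 ^ (k - 1)) hPpos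
  rw [Nat.centralBinom_eq_two_mul_choose, Nat.centralBinom_eq_two_mul_choose, ← hP] at hr
  have hch : (0 : ℝ) < (Nat.choose (2 * 2 ^ k) (2 ^ k) : ℝ) := by
    have : 0 < Nat.choose (2 * 2 ^ k) (2 ^ k) := Nat.choose_pos (by omega)
    exact_mod_cast this
  have hrR : ((2:ℝ) ^ (k - 1)) * ((Nat.choose (2 ^ k) (2 ^ (k - 1)) : ℝ)) ^ 4
      ≤ ((Nat.choose (2 * 2 ^ k) (2 ^ k) : ℝ)) ^ 2 := by
    exact_mod_cast hr
  have hs : (0:ℝ) < Real.sqrt ((2:ℝ) ^ (k + 1)) := Real.sqrt_pos.mpr (by positivity)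
  have hx : (0:ℝ) ≤ ((Nat.choose (2 ^ k) (2 ^ (k - 1)) : ℝ)) ^ 2
      / (Nat.choose (2 * 2 ^ k) (2 ^ k) : ℝ) := by positivity
  have hy : (0:ℝ) ≤ 2 / Real.sqrt ((2:ℝ) ^ (k + 1)) := by positivity
  rw [← pow_le_pow_iff_left₀ hx hy (two_ne_zero)]
  rw [div_pow, div_pow, Real.sq_sqrt (by positivity)]
  rw [div_le_div_iff₀ (by positivity) (by positivity)]
  have e : (2:ℝ) ^ (k + 1) = 4 * 2 ^ (k - 1) := by
    conv_lhs => rw [show k + 1 = (k - 1) + 2 by omega]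
    rw [pow_add]; ring
  rw [e]
  nlinarith

theorem bound_ge_18 (M : ℝ) (hM : 2 ≤ M) :
    (1 / 18 : ℝ) ≤ M * (M - 1) ^ 2 / ((2 * M - 1) ^ 2 * (3 * M - 2)) := by
  have hden : 0 < (2 * M - 1) ^ 2 * (3 * M - 2) := by
    have h1 : 0 < 2 * M - 1 := by linarith
    have h2 : 0 < 3 * M - 2 := by linarith
    positivity
  rw [div_le_div_iff₀ (by norm_num) hden]
  have h3 : 0 ≤ (M - 2) * (6 * M ^ 2 - 4 * M - 1) := by
    apply mul_nonneg (by linarith)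
    nlinarith
  nlinarith

/-- Combined statement in terms of `d` (`n = 2^d = 2 * 2^(d-1)` cards). -/
theorem thorp_window (d : ℕ) (hd : 2 ≤ d) :
    (∀ t : ℕ, t ≤ 2 * d - 2 →
      1 - 2 / Real.sqrt ((2:ℝ) ^ d)
          ≤ tvDist (convPow (thorpLaw (2 ^ (d - 1))) t)
              (unifLaw (Equiv.Perm (Fin (2 * 2 ^ (d - 1)))))
      ∧ 1 / 3 ≤ tvDist (convPow (thorpLaw (2 ^ (d - 1))) t)
              (unifLaw (Equiv.Perm (Fin (2 * 2 ^ (d - 1))))))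
    ∧ (∀ t : ℕ, t ≤ 2 * d - 1 →
      1 / 18 ≤ tvDist (convPow (thorpLaw (2 ^ (d - 1))) t)
              (unifLaw (Equiv.Perm (Fin (2 * 2 ^ (d - 1))))))
    ∧ (∀ t : ℕ, tvDist (convPow (thorpLaw (2 ^ (d - 1))) t)
            (unifLaw (Equiv.Perm (Fin (2 * 2 ^ (d - 1))))) ≤ 1 / 4 → 2 * d - 1 ≤ t)
    ∧ (∀ t : ℕ, tvDist (convPow (thorpLaw (2 ^ (d - 1))) t)
            (unifLaw (Equiv.Perm (Fin (2 * 2 ^ (d - 1))))) < 1 / 18 → 2 * d ≤ t) := by
  have hk : 1 ≤ d - 1 := by omega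
  have e1 : d - 1 + 1 = d := by omega
  have e2 : 2 * (d - 1) + 1 = 2 * d - 1 := by omega
  have hA : ∀ t : ℕ, t ≤ 2 * d - 2 →
      1 - 2 / Real.sqrt ((2:ℝ) ^ d)
          ≤ tvDist (convPow (thorpLaw (2 ^ (d - 1))) t)
              (unifLaw (Equiv.Perm (Fin (2 * 2 ^ (d - 1)))))
      ∧ 1 / 3 ≤ tvDist (convPow (thorpLaw (2 ^ (d - 1))) t)
              (unifLaw (Equiv.Perm (Fin (2 * 2 ^ (d - 1))))) := by
    intro t ht
    have h1 := tv_le_2k (d - 1) hk t (by omega)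
    have h2 := bound_ge_third (d - 1) hk
    have h3 := bound_sqrt (d - 1) hk
    rw [e1] at h3
    constructor
    · linarith
    · linarith
  have hB : ∀ t : ℕ, t ≤ 2 * d - 1 →
      1 / 18 ≤ tvDist (convPow (thorpLaw (2 ^ (d - 1))) t)
              (unifLaw (Equiv.Perm (Fin (2 * 2 ^ (d - 1))))) := by
    intro t ht
    have h1 := tv_at_2k1 (d - 1) hk
    have h2 : tvDist (convPow (thorpLaw (2 ^ (d - 1))) (2 * (d - 1) + 1))
        (unifLaw (Equiv.Perm (Fin (2 * 2 ^ (d - 1)))))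
        ≤ tvDist (convPow (thorpLaw (2 ^ (d - 1))) t)
            (unifLaw (Equiv.Perm (Fin (2 * 2 ^ (d - 1))))) :=
      tvDist_convPow_antitone (thorpLaw_nonneg (2 ^ (d - 1))) (sum_thorpLaw (2 ^ (d - 1)))
        (by omega)
    have hM : (2 : ℝ) ≤ ((2 ^ (d - 1) : ℕ) : ℝ) := by
      have : 2 ≤ 2 ^ (d - 1) := by
        calc 2 = 2 ^ 1 := by norm_num
          _ ≤ 2 ^ (d - 1) := Nat.pow_le_pow_right (by norm_num) hk
      exact_mod_cast this
    have h3 := bound_ge_18 _ hM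
    linarith
  refine ⟨hA, hB, ?_, ?_⟩
  · intro t ht
    by_contra hlt
    have hle : t ≤ 2 * d - 2 := by omega
    have := (hA t hle).2
    linarith
  · intro t ht
    by_contra hlt
    have hle : t ≤ 2 * d - 1 := by omega
    have := hB t hle
    linarith

end Vale.Agent.Lib.P162
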